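import Vale.Agent.P032.Words.H151.Pal3

/-!
# P032: from sets of colours to the tables with ties, definitions

`code f s`: the mask of the set `s`, the colour `i` is the bit `f i`.  `Enc D f M`: the letters of `D`
are the pairs of `M`.  `okD D`: the lists of `D` are consistent with the masks.  `Leg M h`: legal words of
pairs (`OpM` is the chord condition in the component form).  `Sys M A Λ`: the rules for the palettes `Λ`
and the words `A` accumulating at a time.  `wd`, `td`: the encoded words and palettes.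
-/

namespace Vale.Agent.P032.Words6.H46

open Vale.Agent.P032.Words.Trie

/-- the mask of a set of colours -/
noncomputable def code (f : Fin 6 → ℕ) (s : Set (Fin 6)) : ℕ := by
  classical exact Nat.ofBits (n := 6) (fun j => decide (∃ i ∈ s, f i = j.val))

/-- a split of the other colours, all pairs across are broken, separates `l` from `m` as soon as there is a
split -/
def DcM (M : Fin 6 → Fin 6 → Prop) (P : Set (Fin 6)) (l m : Fin 6) : Prop :=
  (∃ X Y : Set (Fin 6), X ∪ Y = Pᶜ ∧ Disjoint X Y ∧ X.Nonempty ∧ Y.Nonempty ∧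
    ∀ x ∈ X, ∀ y ∈ Y, M x y) →
  ∃ X Y : Set (Fin 6), X ∪ Y = Pᶜ ∧ Disjoint X Y ∧ (∀ x ∈ X, ∀ y ∈ Y, M x y) ∧ l ∈ X ∧ m ∈ Y

/-- chord condition for antipodal letters, component form -/
def OpM (M : Fin 6 → Fin 6 → Prop) (P Q : Set (Fin 6)) : Prop :=
  ∃ l m, l ∉ P ∧ l ∉ Q ∧ m ∉ P ∧ m ∉ Q ∧ DcM M P l m ∧ DcM M Q l m

/-- legal words of pairs -/
structure Leg (M : Fin 6 → Fin 6 → Prop) (h : Fin 6 → Set (Fin 6)) : Prop where
  pair : ∀ k, ∃ a b, a ≠ b ∧ M a b ∧ h k = {a, b}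
  nb : ∀ k, Disjoint (h k) (h (k + 1))
  op : ∀ k, OpM M (h k) (h (k + 3))

/-- the rules at one time: `A` the accumulating words, `Λ` the palettes -/
structure Sys (M : Fin 6 → Fin 6 → Prop) (A : (Fin 6 → Set (Fin 6)) → Prop)
    (Λ : Fin 6 → Set (Fin 6)) : Prop where
  leg : ∀ h, A h → Leg M h
  sub : ∀ h, A h → ∀ k, h k ⊆ Λ k
  span : ∀ k, ∀ i ∈ Λ k, ∃ h, A h ∧ i ∈ h k
  card : ∀ k, (Λ k).ncard = 2 ∨ (Λ k).ncard = 3
  nb : ∀ k, (Λ k).ncard = 2 ∨ (Λ (k + 1)).ncard = 2 → Disjoint (Λ k) (Λ (k + 1))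
  nb1 : ∀ k, (Λ k ∩ Λ (k + 1)).ncard ≤ 1
  gap : ∀ k, (Λ k).ncard = 3 → (Λ (k + 3)).ncard = 2 → (Λ k ∩ Λ (k + 3)).Nonempty
  g33 : ∀ k s, (Λ k).ncard = 3 → (Λ (k + 3)).ncard = 3 → Λ k ∩ Λ (k + 3) = {s} →
    ∀ h, A h → ¬ (h k = Λ k \ {s} ∧ h (k + 3) = Λ (k + 3) \ {s})
  alt : ¬ (Λ 0 = Λ 2 ∧ Λ 2 = Λ 4 ∧ Λ 1 = Λ 3 ∧ Λ 3 = Λ 5 ∧ (Λ 0).ncard = 3 ∧ (Λ 1).ncard = 3 ∧
    (Λ 0 ∩ Λ 1).ncard = 1)

/-- the letters of `D` are the pairs of `M` -/
structure Enc (D : Dat) (f : Fin 6 → ℕ) (M : Fin 6 → Fin 6 → Prop) : Prop where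
  inj : Function.Injective f
  lt : ∀ i, f i < 6
  mem : ∀ a b, a ≠ b → (M a b ↔ 2 ^ f a ||| 2 ^ f b ∈ D.L)

/-- the tie mask of a palette mask -/
def tcode (D : Dat) (m : ℕ) : ℕ := D.tie.getD (D.P.idxOf m) 0

/-- the mode hypotheses for one palette tuple: all triples are palettes of `D`; a tie palette or the
complement of a tie palette is opposite to its complement; a tie palette occurs once -/
structure Md (D : Dat) (f : Fin 6 → ℕ) (Λ : Fin 6 → Set (Fin 6)) : Prop where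
  mem : ∀ k, (Λ k).ncard = 3 → code f (Λ k) ∈ D.P
  opp : ∀ k, (Λ k).ncard = 3 → (tcode D (code f (Λ k)) ≠ 0 ∨ tcode D (code f (Λ k)ᶜ) ≠ 0) →
    Λ (k + 3) = (Λ k)ᶜ
  one : ∀ k k', tcode D (code f (Λ k)) ≠ 0 → Λ k = Λ k' → k = k'

/-- all pairs across are letters -/
def acr (L : List ℕ) (x y : ℕ) : Bool :=
  (List.range 6).all fun i => (List.range 6).all fun j =>
    !(x.testBit i && y.testBit j) || L.contains (2 ^ i ||| 2 ^ j)

/-- the mask `x` is one half of a split of the complement of `p` -/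
def spl (L : List ℕ) (p x : ℕ) : Bool :=
  Nat.beq (Nat.land x p) 0 && !(Nat.beq x 0) && !(Nat.beq (Nat.xor (Nat.xor 63 p) x) 0) &&
    acr L x (Nat.xor (Nat.xor 63 p) x)

/-- `DcM` for masks -/
def dcB (L : List ℕ) (p l m : ℕ) : Bool :=
  !((List.range 64).any (spl L p)) || (List.range 64).any fun x => spl L p x && x.testBit l &&
    (Nat.xor (Nat.xor 63 p) x).testBit m

/-- `OpM` for masks -/
def opB (L : List ℕ) (p q : ℕ) : Bool :=
  (List.range 6).any fun l => (List.range 6).any fun m =>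
    !(p.testBit l) && !(q.testBit l) && !(p.testBit m) && !(q.testBit m) &&
      dcB L p l m && dcB L q l m

/-- two different bits -/
def twoB (m : ℕ) : Bool :=
  (List.range 6).any fun i => (List.range 6).any fun j => Nat.blt i j && m.testBit i && m.testBit j

/-- the lists of a table are consistent with the masks -/
def okD (D : Dat) : Bool :=
  Nat.beq D.L.length D.A && Nat.beq D.P.length D.N && Nat.ble D.A D.N &&
  (List.range D.A).all (fun a => Nat.beq (D.P.getD a 0) (D.L.getD a 0)) &&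
  (List.range D.A).all (fun a => (List.range 6).any fun i => (List.range 6).any fun j =>
    Nat.blt i j && Nat.beq (D.L.getD a 0) (2 ^ i ||| 2 ^ j)) &&
  (List.range D.N).all (fun p => (List.range D.N).all fun q => Nat.beq p q ||
    (!(Nat.beq (D.P.getD p 0) (D.P.getD q 0)) &&
      Nat.beq (Nat.land (D.tie.getD p 0) (D.tie.getD q 0)) 0)) &&
  (List.range D.A).all (fun a => Nat.beq (D.tie.getD a 0) 0) &&
  (List.range D.A).all (fun a => (List.range D.A).all fun b =>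
    (!(Nat.beq (Nat.land (D.L.getD a 0) (D.L.getD b 0)) 0) || bt (D.nb.getD a 0) b) &&
    (bt (D.op.getD a 0) b || !(opB D.L (D.L.getD a 0) (D.L.getD b 0)))) &&
  (List.range D.N).all (fun p => (List.range D.N).all fun q =>
    (bt (D.nbT.getD p 0) q ||
      cond (Nat.blt p D.A || Nat.blt q D.A) (!(Nat.beq (Nat.land (D.P.getD p 0) (D.P.getD q 0)) 0))
        (twoB (Nat.land (D.P.getD p 0) (D.P.getD q 0)))) &&
    (bt (D.opT.getD p 0) q ||
      cond (Nat.blt p D.A && Nat.blt q D.A) (!(opB D.L (D.P.getD p 0) (D.P.getD q 0)))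
        (((Nat.blt p D.A || Nat.blt q D.A) && Nat.beq (Nat.land (D.P.getD p 0) (D.P.getD q 0)) 0) ||
          (!(Nat.beq (D.P.getD q 0) (Nat.xor 63 (D.P.getD p 0))) &&
            ((!(Nat.blt p D.A) && (!(Nat.beq (tcode D (D.P.getD p 0)) 0) ||
              !(Nat.beq (tcode D (Nat.xor 63 (D.P.getD p 0))) 0))) ||
            (!(Nat.blt q D.A) && (!(Nat.beq (tcode D (D.P.getD q 0)) 0) ||
              !(Nat.beq (tcode D (Nat.xor 63 (D.P.getD q 0))) 0)))))))) &&
  (List.range D.N).all (fun p => (List.range D.A).all fun a =>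
    !(Nat.beq (Nat.land (D.L.getD a 0) (D.P.getD p 0)) (D.L.getD a 0)) ||
      (D.PL.getD p []).contains a)

/-- the encoded word -/
noncomputable def wd (D : Dat) (f : Fin 6 → ℕ) (h : Fin 6 → Set (Fin 6)) (k : ℕ) : ℕ :=
  D.L.idxOf (code f (h (Fin.ofNat 6 k)))

/-- the encoded palettes -/
noncomputable def td (D : Dat) (f : Fin 6 → ℕ) (Λ : Fin 6 → Set (Fin 6)) (k : ℕ) : ℕ :=
  D.P.idxOf (code f (Λ (Fin.ofNat 6 k)))

end Vale.Agent.P032.Words6.H46
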