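import Mathlib
import Vale.Agent.P032.Words6.H46.EncD

/-!
# P032: masks of sets of colours
-/

namespace Vale.Agent.P032.Words6.H46

open Vale.Agent.P032.Words.Trie

variable {f : Fin 6 → ℕ}

theorem ex_f (hi : Function.Injective f) (hl : ∀ i, f i < 6) {j : ℕ} (hj : j < 6) :
    ∃ i, f i = j := by
  have h1 : Function.Injective (fun i : Fin 6 => (⟨f i, hl i⟩ : Fin 6)) := by
    intro a b hab
    exact hi (Fin.mk.inj_iff.1 hab)
  obtain ⟨i, hi'⟩ := (Finite.surjective_of_injective h1) ⟨j, hj⟩
  exact ⟨i, Fin.mk.inj_iff.1 hi'⟩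

theorem tb (hi : Function.Injective f) (hl : ∀ i, f i < 6) (s : Set (Fin 6)) (i : Fin 6) :
    (code f s).testBit (f i) = true ↔ i ∈ s := by
  classical
  unfold code
  rw [Nat.testBit_ofBits_lt _ _ (hl i), decide_eq_true_iff]
  constructor
  · intro h
    obtain ⟨j, hj, e⟩ := h
    exact hi e ▸ hj
  · intro h
    exact ⟨i, h, rfl⟩

theorem code_lt (f : Fin 6 → ℕ) (s : Set (Fin 6)) : code f s < 64 := by
  unfold code
  exact Nat.ofBits_lt_two_pow _

theorem ext_mask (hi : Function.Injective f) (hl : ∀ i, f i < 6) {a b : ℕ} (ha : a < 64)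
    (hb : b < 64) (h : ∀ i, a.testBit (f i) = true ↔ b.testBit (f i) = true) : a = b := by
  apply Nat.eq_of_testBit_eq
  intro j
  by_cases hj : j < 6
  · obtain ⟨i, rfl⟩ := ex_f hi hl hj
    exact Bool.eq_iff_iff.2 (h i)
  · have h2 : (2 : ℕ) ^ 6 ≤ 2 ^ j := Nat.pow_le_pow_right (by norm_num) (by omega)
    rw [Nat.testBit_lt_two_pow (lt_of_lt_of_le (show a < 2 ^ 6 from ha) h2),
      Nat.testBit_lt_two_pow (lt_of_lt_of_le (show b < 2 ^ 6 from hb) h2)]

theorem code_and (hi : Function.Injective f) (hl : ∀ i, f i < 6) (s t : Set (Fin 6)) :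
    Nat.land (code f s) (code f t) = code f (s ∩ t) := by
  refine ext_mask hi hl (lt_of_le_of_lt Nat.and_le_left (code_lt f s)) (code_lt f _) fun i => ?_
  have : (Nat.land (code f s) (code f t)).testBit (f i) =
      ((code f s).testBit (f i) && (code f t).testBit (f i)) := Nat.testBit_and _ _ _
  rw [this, Bool.and_eq_true, tb hi hl, tb hi hl, tb hi hl]
  exact Iff.rfl

theorem code_xor (hi : Function.Injective f) (hl : ∀ i, f i < 6) {s t : Set (Fin 6)}
    (hst : t ⊆ s) : Nat.xor (code f s) (code f t) = code f (s \ t) := by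
  refine ext_mask hi hl (Nat.xor_lt_two_pow (n := 6) (code_lt f s) (code_lt f t)) (code_lt f _)
    fun i => ?_
  have : (Nat.xor (code f s) (code f t)).testBit (f i) =
      ((code f s).testBit (f i) ^^ (code f t).testBit (f i)) := Nat.testBit_xor _ _ _
  rw [this, tb hi hl]
  have h1 := tb hi hl s i
  have h2 := tb hi hl t i
  by_cases k1 : i ∈ s <;> by_cases k2 : i ∈ t
  · rw [h1.2 k1, h2.2 k2]; simp [k2]
  · have k2' : (code f t).testBit (f i) = false := by
      cases hc : (code f t).testBit (f i)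
      · rfl
      · exact absurd (h2.1 hc) k2
    rw [h1.2 k1, k2']; simp [k1, k2]
  · exact absurd (hst k2) k1
  · have k1' : (code f s).testBit (f i) = false := by
      cases hc : (code f s).testBit (f i)
      · rfl
      · exact absurd (h1.1 hc) k1
    have k2' : (code f t).testBit (f i) = false := by
      cases hc : (code f t).testBit (f i)
      · rfl
      · exact absurd (h2.1 hc) k2
    rw [k1', k2']; simp [k1]

theorem code_univ (hi : Function.Injective f) (hl : ∀ i, f i < 6) : code f Set.univ = 63 := by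
  refine ext_mask hi hl (code_lt f _) (by norm_num) fun i => ?_
  rw [tb hi hl]
  have : ∀ j < 6, Nat.testBit 63 j = true := by decide
  simp [this _ (hl i)]

theorem code_compl (hi : Function.Injective f) (hl : ∀ i, f i < 6) (s : Set (Fin 6)) :
    Nat.xor 63 (code f s) = code f sᶜ := by
  rw [← code_univ hi hl, code_xor hi hl (Set.subset_univ s), Set.compl_eq_univ_sdiff]

theorem code_inj (hi : Function.Injective f) (hl : ∀ i, f i < 6) {s t : Set (Fin 6)}
    (h : code f s = code f t) : s = t := by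
  ext i
  rw [← tb hi hl s i, ← tb hi hl t i, h]

theorem code_empty (hi : Function.Injective f) (hl : ∀ i, f i < 6) : code f ∅ = 0 := by
  refine ext_mask hi hl (code_lt f _) (by norm_num) fun i => ?_
  rw [tb hi hl]
  simp

theorem code_zero (hi : Function.Injective f) (hl : ∀ i, f i < 6) {s : Set (Fin 6)} :
    code f s = 0 ↔ s = ∅ := by
  constructor
  · intro h
    exact code_inj hi hl (h.trans (code_empty hi hl).symm)
  · rintro rfl
    exact code_empty hi hl

theorem code_single (hi : Function.Injective f) (hl : ∀ i, f i < 6) (a : Fin 6) :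
    code f {a} = 2 ^ f a := by
  refine ext_mask hi hl (code_lt f _)
    (lt_of_lt_of_le (Nat.pow_lt_pow_right (by norm_num) (hl a)) (by norm_num)) fun i => ?_
  rw [tb hi hl, Nat.testBit_two_pow, decide_eq_true_iff, Set.mem_singleton_iff]
  constructor
  · rintro rfl; rfl
  · intro h; exact (hi h).symm

theorem code_pair (hi : Function.Injective f) (hl : ∀ i, f i < 6) (a b : Fin 6) :
    code f {a, b} = 2 ^ f a ||| 2 ^ f b := by
  have l1 : (2 : ℕ) ^ f a < 2 ^ 6 := Nat.pow_lt_pow_right (by norm_num) (hl a)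
  have l2 : (2 : ℕ) ^ f b < 2 ^ 6 := Nat.pow_lt_pow_right (by norm_num) (hl b)
  refine ext_mask hi hl (code_lt f _) (Nat.or_lt_two_pow l1 l2) fun i => ?_
  rw [tb hi hl, Nat.testBit_or, Bool.or_eq_true, Nat.testBit_two_pow, Nat.testBit_two_pow,
    decide_eq_true_iff, decide_eq_true_iff, Set.mem_insert_iff, Set.mem_singleton_iff]
  constructor
  · rintro (rfl | rfl)
    · exact Or.inl rfl
    · exact Or.inr rfl
  · rintro (h | h)
    · exact Or.inl (hi h).symm
    · exact Or.inr (hi h).symm

theorem mask_of (hi : Function.Injective f) (hl : ∀ i, f i < 6) {x : ℕ} (hx : x < 64) :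
    code f {i | x.testBit (f i) = true} = x := by
  refine ext_mask hi hl (code_lt f _) hx fun i => ?_
  rw [tb hi hl]
  exact Iff.rfl

theorem sub_add : ∀ P < 64, ∀ l < 64, Nat.land l P = l → P = l + Nat.xor P l := by
  decide +kernel

theorem code_add (hi : Function.Injective f) (hl : ∀ i, f i < 6) {s t : Set (Fin 6)}
    (hst : t ⊆ s) : code f s = code f t + code f (s \ t) := by
  have h1 := sub_add (code f s) (code_lt f s) (code f t) (code_lt f t) (by
    rw [code_and hi hl, Set.inter_eq_left.2 hst])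
  rwa [code_xor hi hl hst] at h1

theorem twoB_code (hi : Function.Injective f) (hl : ∀ i, f i < 6) {s : Set (Fin 6)}
    (h : twoB (code f s) = true) : 2 ≤ s.ncard := by
  unfold twoB at h
  obtain ⟨i, hi1, h⟩ := List.any_eq_true.1 h
  obtain ⟨j, hj1, h⟩ := List.any_eq_true.1 h
  rw [Bool.and_eq_true, Bool.and_eq_true] at h
  obtain ⟨⟨h1, h2⟩, h3⟩ := h
  have h1 : i < j := Nat.le_of_ble_eq_true h1
  obtain ⟨a, rfl⟩ := ex_f hi hl (List.mem_range.1 hi1)
  obtain ⟨b, rfl⟩ := ex_f hi hl (List.mem_range.1 hj1)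
  rw [tb hi hl] at h2 h3
  have hab : a ≠ b := fun h => by rw [h] at h1; exact lt_irrefl _ h1
  rw [← Set.ncard_pair hab]
  exact Set.ncard_le_ncard (Set.insert_subset h2 (Set.singleton_subset_iff.2 h3)) (Set.toFinite _)

end Vale.Agent.P032.Words6.H46
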