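import Vale.Agent.P032.Words6.H46.Code

/-!
# P032: from sets of colours to the tables with ties
-/

namespace Vale.Agent.P032.Words6.H46

open Vale.Agent.P032.Words.Trie

variable {D : Dat} {f : Fin 6 → ℕ} {M : Fin 6 → Fin 6 → Prop}
  {A : (Fin 6 → Set (Fin 6)) → Prop} {Λ : Fin 6 → Set (Fin 6)} {h : Fin 6 → Set (Fin 6)}

/-! ### The chord condition -/

theorem acr_code (E : Enc D f M) {X Y : Set (Fin 6)} (hd : Disjoint X Y) :
    acr D.L (code f X) (code f Y) = true ↔ ∀ x ∈ X, ∀ y ∈ Y, M x y := by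
  unfold acr
  rw [List.all_eq_true]
  constructor
  · intro h x hx y hy
    have h1 := List.all_eq_true.1 (h (f x) (List.mem_range.2 (E.lt x))) (f y)
      (List.mem_range.2 (E.lt y))
    rw [(tb E.inj E.lt X x).2 hx, (tb E.inj E.lt Y y).2 hy, Bool.and_self, Bool.not_true,
      Bool.false_or] at h1
    have hne : x ≠ y := fun h2 => Set.disjoint_left.1 hd hx (h2 ▸ hy)
    exact (E.mem x y hne).2 (List.contains_iff_mem.1 h1)
  · intro h i hi
    rw [List.all_eq_true]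
    intro j hj
    obtain ⟨a, rfl⟩ := ex_f E.inj E.lt (List.mem_range.1 hi)
    obtain ⟨b, rfl⟩ := ex_f E.inj E.lt (List.mem_range.1 hj)
    rw [Bool.or_eq_true, Bool.not_eq_true']
    by_cases h1 : a ∈ X
    · by_cases h2 : b ∈ Y
      · right
        have hne : a ≠ b := fun h3 => Set.disjoint_left.1 hd h1 (h3 ▸ h2)
        exact List.contains_iff_mem.2 ((E.mem a b hne).1 (h a h1 b h2))
      · left
        rw [Bool.and_eq_false_iff]
        right
        cases hc : (code f Y).testBit (f b)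
        · rfl
        · exact absurd ((tb E.inj E.lt Y b).1 hc) h2
    · left
      rw [Bool.and_eq_false_iff]
      left
      cases hc : (code f X).testBit (f a)
      · rfl
      · exact absurd ((tb E.inj E.lt X a).1 hc) h1

theorem rest_code (E : Enc D f M) {P X : Set (Fin 6)} (hX : X ⊆ Pᶜ) :
    Nat.xor (Nat.xor 63 (code f P)) (code f X) = code f (Pᶜ \ X) := by
  rw [code_compl E.inj E.lt, code_xor E.inj E.lt hX]

theorem beq_false_iff {a b : ℕ} : Nat.beq a b = false ↔ a ≠ b := by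
  rw [← Bool.not_eq_true, Nat.beq_eq]

theorem spl_code (E : Enc D f M) {P X : Set (Fin 6)} :
    spl D.L (code f P) (code f X) = true ↔
      X ⊆ Pᶜ ∧ X.Nonempty ∧ (Pᶜ \ X).Nonempty ∧ ∀ x ∈ X, ∀ y ∈ Pᶜ \ X, M x y := by
  unfold spl
  rw [Bool.and_eq_true, Bool.and_eq_true, Bool.and_eq_true, Bool.not_eq_true', Bool.not_eq_true',
    beq_false_iff, beq_false_iff, Nat.beq_eq, code_and E.inj E.lt, code_zero E.inj E.lt]
  have key : X ∩ P = ∅ ↔ X ⊆ Pᶜ := by
    rw [← Set.disjoint_iff_inter_eq_empty, Set.subset_compl_iff_disjoint_right]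
  rw [key]
  constructor
  · rintro ⟨⟨⟨h1, h2⟩, h3⟩, h4⟩
    rw [rest_code E h1] at h3 h4
    refine ⟨h1, ?_, ?_, (acr_code E Set.disjoint_sdiff_right).1 h4⟩
    · rw [Set.nonempty_iff_ne_empty]
      exact fun h5 => h2 ((code_zero E.inj E.lt).2 h5)
    · rw [Set.nonempty_iff_ne_empty]
      exact fun h5 => h3 ((code_zero E.inj E.lt).2 h5)
  · rintro ⟨h1, h2, h3, h4⟩
    rw [rest_code E h1]
    refine ⟨⟨⟨h1, ?_⟩, ?_⟩, (acr_code E Set.disjoint_sdiff_right).2 h4⟩
    · exact fun h5 => (Set.nonempty_iff_ne_empty.1 h2) ((code_zero E.inj E.lt).1 h5)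
    · exact fun h5 => (Set.nonempty_iff_ne_empty.1 h3) ((code_zero E.inj E.lt).1 h5)

theorem dc_code (E : Enc D f M) {P : Set (Fin 6)} {l m : Fin 6} (hd : DcM M P l m) :
    dcB D.L (code f P) (f l) (f m) = true := by
  unfold dcB
  rw [Bool.or_eq_true, Bool.not_eq_true']
  by_cases hex : (List.range 64).any (spl D.L (code f P)) = true
  · right
    obtain ⟨x, hx, hx2⟩ := List.any_eq_true.1 hex
    have hx64 := List.mem_range.1 hx
    rw [← mask_of E.inj E.lt hx64, spl_code E] at hx2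
    obtain ⟨h1, h2, h3, h4⟩ := hx2
    obtain ⟨X, Y, e1, e2, e3, e4, e5⟩ := hd ⟨_, _, Set.union_sdiff_cancel h1,
      Set.disjoint_sdiff_right, h2, h3, h4⟩
    have hX : X ⊆ Pᶜ := e1 ▸ Set.subset_union_left
    have hY : Pᶜ \ X = Y := by
      rw [← e1, Set.union_sdiff_left]
      exact e2.symm.sdiff_eq_left
    refine List.any_eq_true.2 ⟨code f X, List.mem_range.2 (code_lt f X), ?_⟩
    rw [Bool.and_eq_true, Bool.and_eq_true, rest_code E hX, hY, tb E.inj E.lt, tb E.inj E.lt,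
      spl_code E, hY]
    exact ⟨⟨⟨hX, ⟨l, e4⟩, ⟨m, e5⟩, e3⟩, e4⟩, e5⟩
  · left
    exact Bool.eq_false_iff.2 hex

theorem op_code (E : Enc D f M) {P Q : Set (Fin 6)} (ho : OpM M P Q) :
    opB D.L (code f P) (code f Q) = true := by
  obtain ⟨l, m, h1, h2, h3, h4, h5, h6⟩ := ho
  unfold opB
  refine List.any_eq_true.2 ⟨f l, List.mem_range.2 (E.lt l), List.any_eq_true.2
    ⟨f m, List.mem_range.2 (E.lt m), ?_⟩⟩
  have key : ∀ {s : Set (Fin 6)} {i : Fin 6}, i ∉ s → (!(code f s).testBit (f i)) = true := by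
    intro s i hi
    rw [Bool.not_eq_true']
    cases hc : (code f s).testBit (f i)
    · rfl
    · exact absurd ((tb E.inj E.lt s i).1 hc) hi
  rw [key h1, key h2, key h3, key h4, dc_code E h5, dc_code E h6]
  rfl

/-! ### The consistency check -/

structure OkS (D : Dat) : Prop where
  lenL : D.L.length = D.A
  lenP : D.P.length = D.N
  le : D.A ≤ D.N
  pl : ∀ a < D.A, D.P.getD a 0 = D.L.getD a 0
  two : ∀ a < D.A, ∃ i < 6, ∃ j < 6, i < j ∧ D.L.getD a 0 = 2 ^ i ||| 2 ^ j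
  ne : ∀ p < D.N, ∀ q < D.N, p ≠ q → D.P.getD p 0 ≠ D.P.getD q 0 ∧
    Nat.land (D.tie.getD p 0) (D.tie.getD q 0) = 0
  tie : ∀ a < D.A, D.tie.getD a 0 = 0
  nb : ∀ a < D.A, ∀ b < D.A, Nat.land (D.L.getD a 0) (D.L.getD b 0) = 0 → bt (D.nb.getD a 0) b = true
  op : ∀ a < D.A, ∀ b < D.A, opB D.L (D.L.getD a 0) (D.L.getD b 0) = true →
    bt (D.op.getD a 0) b = true
  nbT : ∀ p < D.N, ∀ q < D.N, bt (D.nbT.getD p 0) q = true ∨
    ((p < D.A ∨ q < D.A) ∧ Nat.land (D.P.getD p 0) (D.P.getD q 0) ≠ 0) ∨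
    (D.A ≤ p ∧ D.A ≤ q ∧ twoB (Nat.land (D.P.getD p 0) (D.P.getD q 0)) = true)
  opT : ∀ p < D.N, ∀ q < D.N, bt (D.opT.getD p 0) q = true ∨
    (p < D.A ∧ q < D.A ∧ opB D.L (D.P.getD p 0) (D.P.getD q 0) = false) ∨
    (¬ (p < D.A ∧ q < D.A) ∧ (p < D.A ∨ q < D.A) ∧ Nat.land (D.P.getD p 0) (D.P.getD q 0) = 0) ∨
    (D.P.getD q 0 ≠ Nat.xor 63 (D.P.getD p 0) ∧
      ((D.A ≤ p ∧ (tcode D (D.P.getD p 0) ≠ 0 ∨ tcode D (Nat.xor 63 (D.P.getD p 0)) ≠ 0)) ∨
        (D.A ≤ q ∧ (tcode D (D.P.getD q 0) ≠ 0 ∨ tcode D (Nat.xor 63 (D.P.getD q 0)) ≠ 0))))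
  PL : ∀ p < D.N, ∀ a < D.A, Nat.land (D.L.getD a 0) (D.P.getD p 0) = D.L.getD a 0 →
    a ∈ D.PL.getD p []

theorem all_range {n : ℕ} {g : ℕ → Bool} (h : (List.range n).all g = true) {a : ℕ} (ha : a < n) :
    g a = true := List.all_eq_true.1 h a (List.mem_range.2 ha)

theorem blt_iff {a b : ℕ} : Nat.blt a b = true ↔ a < b := by
  unfold Nat.blt
  rw [Nat.ble_eq]
  exact Iff.rfl

theorem nblt_iff {a b : ℕ} : (!(Nat.blt a b)) = true ↔ b ≤ a := by
  rw [Bool.not_eq_true', ← Bool.not_eq_true, blt_iff]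
  omega

theorem okS (ok : okD D = true) : OkS D := by
  unfold okD at ok
  simp only [Bool.and_eq_true] at ok
  obtain ⟨⟨⟨⟨⟨⟨⟨⟨⟨h1, h2⟩, h3⟩, h4⟩, h5⟩, h6⟩, h7⟩, h8⟩, h9⟩, h10⟩ := ok
  refine ⟨Nat.eq_of_beq_eq_true h1, Nat.eq_of_beq_eq_true h2, Nat.le_of_ble_eq_true h3, ?_, ?_, ?_,
    ?_, ?_, ?_, ?_, ?_, ?_⟩
  · intro a ha
    exact Nat.eq_of_beq_eq_true (all_range h4 ha)
  · intro a ha
    obtain ⟨i, hi, h⟩ := List.any_eq_true.1 (all_range h5 ha)
    obtain ⟨j, hj, h⟩ := List.any_eq_true.1 h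
    rw [Bool.and_eq_true, blt_iff, Nat.beq_eq] at h
    exact ⟨i, List.mem_range.1 hi, j, List.mem_range.1 hj, h.1, h.2⟩
  · intro p hp q hq hne
    have h := all_range (all_range h6 hp) hq
    rw [Bool.or_eq_true, Nat.beq_eq, Bool.and_eq_true, Bool.not_eq_true', beq_false_iff,
      Nat.beq_eq] at h
    rcases h with h | h
    · exact absurd h hne
    · exact h
  · intro a ha
    exact Nat.eq_of_beq_eq_true (all_range h7 ha)
  · intro a ha b hb h0
    have h := all_range (all_range h8 ha) hb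
    rw [Bool.and_eq_true, Bool.or_eq_true, Bool.not_eq_true', beq_false_iff] at h
    rcases h.1 with h | h
    · exact absurd h0 h
    · exact h
  · intro a ha b hb h0
    have h := all_range (all_range h8 ha) hb
    rw [Bool.and_eq_true, Bool.or_eq_true, Bool.or_eq_true, Bool.not_eq_true', h0] at h
    rcases h.2 with h | h
    · exact h
    · exact absurd h (by simp)
  · intro p hp q hq
    have h := all_range (all_range h9 hp) hq
    rw [Bool.and_eq_true] at h
    have h := h.1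
    rw [Bool.or_eq_true] at h
    rcases h with h | h
    · exact Or.inl h
    right
    cases hc : (Nat.blt p D.A || Nat.blt q D.A) with
    | true =>
      rw [hc, cond_true, Bool.not_eq_true', beq_false_iff] at h
      rw [Bool.or_eq_true, blt_iff, blt_iff] at hc
      exact Or.inl ⟨hc, h⟩
    | false =>
      rw [hc, cond_false] at h
      rw [Bool.or_eq_false_iff, ← Bool.not_eq_true, ← Bool.not_eq_true, blt_iff, blt_iff] at hc
      exact Or.inr ⟨by omega, by omega, h⟩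
  · intro p hp q hq
    have h := all_range (all_range h9 hp) hq
    rw [Bool.and_eq_true] at h
    have h := h.2
    rw [Bool.or_eq_true] at h
    rcases h with h | h
    · exact Or.inl h
    right
    cases hc : (Nat.blt p D.A && Nat.blt q D.A) with
    | true =>
      rw [hc, cond_true, Bool.not_eq_true'] at h
      rw [Bool.and_eq_true, blt_iff, blt_iff] at hc
      exact Or.inl ⟨hc.1, hc.2, h⟩
    | false =>
      rw [hc, cond_false] at h
      have hc' : ¬ (p < D.A ∧ q < D.A) := by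
        rintro ⟨k1, k2⟩
        rw [blt_iff.2 k1, blt_iff.2 k2] at hc
        exact absurd hc (by simp)
      rw [Bool.or_eq_true, Bool.and_eq_true, Bool.or_eq_true, blt_iff, blt_iff, Nat.beq_eq,
        Bool.and_eq_true, Bool.not_eq_true', beq_false_iff, Bool.or_eq_true, Bool.and_eq_true,
        Bool.and_eq_true, Bool.or_eq_true, Bool.or_eq_true, nblt_iff, nblt_iff, Bool.not_eq_true',
        beq_false_iff, Bool.not_eq_true', beq_false_iff, Bool.not_eq_true', beq_false_iff,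
        Bool.not_eq_true', beq_false_iff] at h
      rcases h with h | h
      · exact Or.inr (Or.inl ⟨hc', h.1, h.2⟩)
      · exact Or.inr (Or.inr h)
  · intro p hp a ha h0
    have h := all_range (all_range h10 hp) ha
    rw [Bool.or_eq_true, Bool.not_eq_true', beq_false_iff] at h
    rcases h with h | h
    · exact absurd h0 h
    · exact List.contains_iff_mem.1 h

/-! ### Indices -/

theorem idx_spec {L : List ℕ} {m : ℕ} (hm : m ∈ L) :
    L.idxOf m < L.length ∧ L.getD (L.idxOf m) 0 = m := by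
  have h1 := List.idxOf_lt_length_iff.2 hm
  refine ⟨h1, ?_⟩
  rw [List.getD_eq_getElem _ _ h1, List.getElem_idxOf h1]

theorem getD_mem {L : List ℕ} {a : ℕ} (ha : a < L.length) : L.getD a 0 ∈ L := by
  rw [List.getD_eq_getElem _ _ ha]
  exact List.getElem_mem ha

theorem letter_mem (E : Enc D f M) {k : Fin 6} (hh : Leg M h) : code f (h k) ∈ D.L := by
  obtain ⟨a, b, hab, hM, e⟩ := hh.pair k
  rw [e, code_pair E.inj E.lt]
  exact (E.mem a b hab).1 hM

theorem wd_spec (O : OkS D) (E : Enc D f M) (hh : Leg M h) (k : ℕ) :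
    wd D f h k < D.A ∧ D.L.getD (wd D f h k) 0 = code f (h (Fin.ofNat 6 k)) := by
  have h1 := idx_spec (letter_mem E (k := Fin.ofNat 6 k) hh)
  rw [O.lenL] at h1
  exact h1

theorem ofNat_add (k j : ℕ) : (Fin.ofNat 6 (k + j) : Fin 6) = Fin.ofNat 6 k + Fin.ofNat 6 j := by
  apply Fin.ext
  simp [Fin.val_add]

theorem enc_word (ok : okD D = true) (E : Enc D f M) (hh : Leg M h) :
    Leg6 D.A D.nb D.op (wd D f h) := by
  have O := okS ok
  have hn : ∀ k j : ℕ, (Fin.ofNat 6 j : Fin 6) = Fin.ofNat 6 k + 1 →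
      rel D.nb (wd D f h k) (wd D f h j) := by
    intro k j hkj
    obtain ⟨a1, a2⟩ := wd_spec O E hh k
    obtain ⟨b1, b2⟩ := wd_spec O E hh j
    refine O.nb _ a1 _ b1 ?_
    rw [a2, b2, code_and E.inj E.lt, hkj, Set.disjoint_iff_inter_eq_empty.1 (hh.nb _),
      code_empty E.inj E.lt]
  have ho : ∀ k j : ℕ, (Fin.ofNat 6 j : Fin 6) = Fin.ofNat 6 k + 3 →
      rel D.op (wd D f h k) (wd D f h j) := by
    intro k j hkj
    obtain ⟨a1, a2⟩ := wd_spec O E hh k
    obtain ⟨b1, b2⟩ := wd_spec O E hh j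
    refine O.op _ a1 _ b1 ?_
    rw [a2, b2, hkj]
    exact op_code E (hh.op _)
  exact ⟨fun k _ => (wd_spec O E hh k).1, hn 0 1 rfl, hn 1 2 rfl, hn 2 3 rfl, hn 3 4 rfl,
    hn 4 5 rfl, hn 5 0 rfl, ho 0 3 rfl, ho 1 4 rfl, ho 2 5 rfl⟩

theorem wd_rot (k : ℕ) (hk : k < 6) :
    wd D f (fun k => h (k + 1)) k = wd D f h ((k + 1) % 6) := by
  have e : (Fin.ofNat 6 k + 1 : Fin 6) = Fin.ofNat 6 ((k + 1) % 6) := by
    interval_cases k <;> rfl
  change D.L.idxOf (code f (h (Fin.ofNat 6 k + 1))) = _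
  rw [e]
  rfl

end Vale.Agent.P032.Words6.H46
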