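import Vale.Agent.P032.Words6.H46.Enc

/-!
# P032: from sets of colours to the tables with ties, the palettes
-/

namespace Vale.Agent.P032.Words6.H46

open Vale.Agent.P032.Words.Trie

variable {D : Dat} {f : Fin 6 → ℕ} {M : Fin 6 → Fin 6 → Prop}
  {A : (Fin 6 → Set (Fin 6)) → Prop} {Λ : Fin 6 → Set (Fin 6)} {h : Fin 6 → Set (Fin 6)}

theorem two_eq (S : Sys M A Λ) {k : Fin 6} (hk : (Λ k).ncard = 2) (hh : A h) : h k = Λ k := by
  obtain ⟨a, b, hab, _, e⟩ := (S.leg h hh).pair k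
  refine Set.eq_of_subset_of_ncard_le (S.sub h hh k) ?_ (Set.toFinite _)
  rw [hk, e, Set.ncard_pair hab]

theorem exA (S : Sys M A Λ) : ∃ h, A h := by
  have hn : (Λ 0).Nonempty := by
    rw [← Set.ncard_pos (Set.toFinite _)]
    rcases S.card 0 with h | h <;> omega
  obtain ⟨i, hi⟩ := hn
  obtain ⟨h, hh, _⟩ := S.span 0 i hi
  exact ⟨h, hh⟩

theorem L_sub_P (O : OkS D) {m : ℕ} (hm : m ∈ D.L) : m ∈ D.P := by
  obtain ⟨h1, h2⟩ := idx_spec hm
  rw [O.lenL] at h1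
  rw [← h2, ← O.pl _ h1]
  exact getD_mem (by rw [O.lenP]; exact lt_of_lt_of_le h1 O.le)

theorem idxP_of_L (O : OkS D) {m : ℕ} (hm : m ∈ D.L) : D.P.idxOf m = D.L.idxOf m := by
  obtain ⟨h1, h2⟩ := idx_spec hm
  rw [O.lenL] at h1
  obtain ⟨h3, h4⟩ := idx_spec (L_sub_P O hm)
  rw [O.lenP] at h3
  by_contra hne
  exact (O.ne _ h3 _ (lt_of_lt_of_le h1 O.le) hne).1 (by rw [h4, O.pl _ h1, h2])

theorem memP (O : OkS D) (E : Enc D f M) (S : Sys M A Λ) (Hm : Md D f Λ) (k : Fin 6) :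
    code f (Λ k) ∈ D.P := by
  rcases S.card k with hk | hk
  · obtain ⟨h, hh⟩ := exA S
    rw [← two_eq S hk hh]
    exact L_sub_P O (letter_mem E (S.leg h hh))
  · exact Hm.mem k hk

theorem td_spec (O : OkS D) (E : Enc D f M) (S : Sys M A Λ) (Hm : Md D f Λ) (k : ℕ) :
    td D f Λ k < D.N ∧ D.P.getD (td D f Λ k) 0 = code f (Λ (Fin.ofNat 6 k)) := by
  have h1 := idx_spec (memP O E S Hm (Fin.ofNat 6 k))
  rw [O.lenP] at h1
  exact h1

theorem lt_two (O : OkS D) (E : Enc D f M) (S : Sys M A Λ) (Hm : Md D f Λ) {k : ℕ}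
    (hk : td D f Λ k < D.A) : (Λ (Fin.ofNat 6 k)).ncard = 2 := by
  obtain ⟨i, hi, j, hj, hij, e⟩ := O.two _ hk
  obtain ⟨a, rfl⟩ := ex_f E.inj E.lt hi
  obtain ⟨b, rfl⟩ := ex_f E.inj E.lt hj
  rw [← O.pl _ hk, (td_spec O E S Hm k).2, ← code_pair E.inj E.lt] at e
  rw [code_inj E.inj E.lt e, Set.ncard_pair]
  rintro rfl
  exact lt_irrefl _ hij

theorem two_lt (O : OkS D) (E : Enc D f M) (S : Sys M A Λ) {k : ℕ}
    (hk : (Λ (Fin.ofNat 6 k)).ncard = 2) : td D f Λ k < D.A := by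
  obtain ⟨h, hh⟩ := exA S
  have hm : code f (Λ (Fin.ofNat 6 k)) ∈ D.L := by
    rw [← two_eq S hk hh]
    exact letter_mem E (S.leg h hh)
  unfold td
  rw [idxP_of_L O hm, ← O.lenL]
  exact (idx_spec hm).1

theorem ge_three (O : OkS D) (E : Enc D f M) (S : Sys M A Λ) {k : ℕ}
    (hk : D.A ≤ td D f Λ k) : (Λ (Fin.ofNat 6 k)).ncard = 3 := by
  rcases S.card (Fin.ofNat 6 k) with h | h
  · exact absurd (two_lt O E S h) (by omega)
  · exact h

theorem rel_nb (O : OkS D) (E : Enc D f M) (S : Sys M A Λ) (Hm : Md D f Λ) {k j : ℕ}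
    (hkj : (Fin.ofNat 6 j : Fin 6) = Fin.ofNat 6 k + 1) :
    rel D.nbT (td D f Λ k) (td D f Λ j) := by
  obtain ⟨a1, a2⟩ := td_spec O E S Hm k
  obtain ⟨b1, b2⟩ := td_spec O E S Hm j
  rcases O.nbT _ a1 _ b1 with h | ⟨h1, h2⟩ | ⟨h1, h2, h3⟩
  · exact h
  · exfalso
    rw [a2, b2, code_and E.inj E.lt] at h2
    have hd : Disjoint (Λ (Fin.ofNat 6 k)) (Λ (Fin.ofNat 6 k + 1)) := by
      refine S.nb _ ?_
      rcases h1 with h1 | h1
      · exact Or.inl (lt_two O E S Hm h1)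
      · have := lt_two O E S Hm h1
        rw [hkj] at this
        exact Or.inr this
    rw [hkj, Set.disjoint_iff_inter_eq_empty.1 hd, code_empty E.inj E.lt] at h2
    exact h2 rfl
  · exfalso
    rw [a2, b2, code_and E.inj E.lt, hkj] at h3
    have h4 := twoB_code E.inj E.lt h3
    have h5 := S.nb1 (Fin.ofNat 6 k)
    omega

theorem rel_op (O : OkS D) (E : Enc D f M) (S : Sys M A Λ) (Hm : Md D f Λ) {k j : ℕ}
    (hkj : (Fin.ofNat 6 j : Fin 6) = Fin.ofNat 6 k + 3) :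
    rel D.opT (td D f Λ k) (td D f Λ j) := by
  obtain ⟨a1, a2⟩ := td_spec O E S Hm k
  obtain ⟨b1, b2⟩ := td_spec O E S Hm j
  have h33 : (Fin.ofNat 6 j : Fin 6) + 3 = Fin.ofNat 6 k := by
    rw [hkj, add_assoc, show (3 + 3 : Fin 6) = 0 from rfl, add_zero]
  rcases O.opT _ a1 _ b1 with h | ⟨h1, h2, h3⟩ | ⟨h1, h2, h3⟩ | ⟨h1, h2⟩
  · exact h
  · exfalso
    obtain ⟨w, hw⟩ := exA S
    rw [a2, b2, ← two_eq S (lt_two O E S Hm h1) hw, ← two_eq S (lt_two O E S Hm h2) hw, hkj,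
      op_code E ((S.leg w hw).op _)] at h3
    exact absurd h3 (by simp)
  · exfalso
    rw [a2, b2, code_and E.inj E.lt, code_zero E.inj E.lt] at h3
    rcases h2 with h2 | h2
    · have h4 : D.A ≤ td D f Λ j := by
        by_contra h4
        exact h1 ⟨h2, by omega⟩
      have h5 := S.gap (Fin.ofNat 6 j) (ge_three O E S h4) (by
        rw [h33]; exact lt_two O E S Hm h2)
      rw [h33, Set.inter_comm, h3] at h5
      exact Set.not_nonempty_empty h5
    · have h4 : D.A ≤ td D f Λ k := by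
        by_contra h4
        exact h1 ⟨by omega, h2⟩
      have h5 := S.gap (Fin.ofNat 6 k) (ge_three O E S h4) (by
        rw [← hkj]; exact lt_two O E S Hm h2)
      rw [← hkj, h3] at h5
      exact Set.not_nonempty_empty h5
  · exfalso
    rw [a2, b2, code_compl E.inj E.lt] at h1
    rcases h2 with ⟨h2, h3⟩ | ⟨h2, h3⟩
    · rw [a2, code_compl E.inj E.lt] at h3
      have h4 := Hm.opp (Fin.ofNat 6 k) (ge_three O E S h2) h3
      rw [← hkj] at h4
      exact h1 (by rw [h4])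
    · rw [b2, code_compl E.inj E.lt] at h3
      have h4 := Hm.opp (Fin.ofNat 6 j) (ge_three O E S h2) h3
      rw [h33] at h4
      exact h1 (by rw [h4, compl_compl])

/-! ### G33 -/

theorem flt_true (O : OkS D) (E : Enc D f M) (S : Sys M A Λ) (Hm : Md D f Λ) (hh : A h)
    {k j : ℕ} (hkj : (Fin.ofNat 6 j : Fin 6) = Fin.ofNat 6 k + 3) :
    flt D (td D f Λ k) (td D f Λ j) (wd D f h k) (wd D f h j) = true := by
  obtain ⟨a1, a2⟩ := td_spec O E S Hm k
  obtain ⟨b1, b2⟩ := td_spec O E S Hm j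
  obtain ⟨c1, c2⟩ := wd_spec O E (S.leg h hh) k
  obtain ⟨d1, d2⟩ := wd_spec O E (S.leg h hh) j
  unfold flt
  cases e1 : Nat.ble D.A (td D f Λ k) with
  | false => rfl
  | true =>
  cases e2 : Nat.ble D.A (td D f Λ j) with
  | false => rfl
  | true =>
  cases e3 : Nat.beq (Nat.land (D.P.getD (td D f Λ k) 0) (D.P.getD (td D f Λ j) 0)) 0 with
  | true => rfl
  | false =>
  cases e4 : Nat.beq (Nat.add (D.L.getD (wd D f h k) 0)
      (Nat.land (D.P.getD (td D f Λ k) 0) (D.P.getD (td D f Λ j) 0))) (D.P.getD (td D f Λ k) 0) with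
  | false => rfl
  | true =>
  cases e5 : Nat.beq (Nat.add (D.L.getD (wd D f h j) 0)
      (Nat.land (D.P.getD (td D f Λ k) 0) (D.P.getD (td D f Λ j) 0))) (D.P.getD (td D f Λ j) 0) with
  | false => rfl
  | true =>
  exfalso
  have g1 := ge_three O E S (Nat.le_of_ble_eq_true e1)
  have g2 := ge_three O E S (Nat.le_of_ble_eq_true e2)
  have e4 := Nat.eq_of_beq_eq_true e4
  have e5 := Nat.eq_of_beq_eq_true e5
  rw [a2, b2, c2, code_and E.inj E.lt] at e4
  rw [a2, b2, d2, code_and E.inj E.lt] at e5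
  have s1 := S.sub h hh (Fin.ofNat 6 k)
  have s2 := S.sub h hh (Fin.ofNat 6 j)
  have t1 := code_add E.inj E.lt s1
  have t2 := code_add E.inj E.lt s2
  have u1 : Λ (Fin.ofNat 6 k) ∩ Λ (Fin.ofNat 6 j) = Λ (Fin.ofNat 6 k) \ h (Fin.ofNat 6 k) := by
    refine code_inj E.inj E.lt ?_
    have e4' : code f (h (Fin.ofNat 6 k)) + code f (Λ (Fin.ofNat 6 k) ∩ Λ (Fin.ofNat 6 j)) =
      code f (Λ (Fin.ofNat 6 k)) := e4
    omega
  have u2 : Λ (Fin.ofNat 6 k) ∩ Λ (Fin.ofNat 6 j) = Λ (Fin.ofNat 6 j) \ h (Fin.ofNat 6 j) := by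
    refine code_inj E.inj E.lt ?_
    have e5' : code f (h (Fin.ofNat 6 j)) + code f (Λ (Fin.ofNat 6 k) ∩ Λ (Fin.ofNat 6 j)) =
      code f (Λ (Fin.ofNat 6 j)) := e5
    omega
  have hc : (h (Fin.ofNat 6 k)).ncard = 2 := by
    obtain ⟨a, b, hab, _, e⟩ := (S.leg h hh).pair (Fin.ofNat 6 k)
    rw [e, Set.ncard_pair hab]
  have h1 : (Λ (Fin.ofNat 6 k) ∩ Λ (Fin.ofNat 6 j)).ncard = 1 := by
    have := Set.ncard_sdiff_add_ncard_of_subset s1 (Set.toFinite _)
    rw [u1]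
    omega
  obtain ⟨s, hs⟩ := Set.ncard_eq_one.1 h1
  have v1 : h (Fin.ofNat 6 k) = Λ (Fin.ofNat 6 k) \ {s} := by
    rw [← hs, u1, Set.sdiff_sdiff_cancel_left s1]
  have v2 : h (Fin.ofNat 6 j) = Λ (Fin.ofNat 6 j) \ {s} := by
    rw [← hs, u2, Set.sdiff_sdiff_cancel_left s2]
  rw [hkj] at g2 hs v2
  exact S.g33 _ s g1 g2 hs h hh ⟨v1, v2⟩

theorem enc_blw (ok : okD D = true) (E : Enc D f M) (S : Sys M A Λ) (Hm : Md D f Λ) (hh : A h) :
    Blw D (td D f Λ) (wd D f h) := by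
  have O := okS ok
  refine ⟨?_, flt_true O E S Hm hh rfl, flt_true O E S Hm hh rfl, flt_true O E S Hm hh rfl⟩
  intro k _
  obtain ⟨a1, a2⟩ := td_spec O E S Hm k
  obtain ⟨c1, c2⟩ := wd_spec O E (S.leg h hh) k
  refine O.PL _ a1 _ c1 ?_
  rw [a2, c2, code_and E.inj E.lt, Set.inter_eq_left.2 (S.sub h hh _)]

/-! ### Ties -/

theorem tmk_bit {tie : List ℕ} {c : ℕ} : ∀ {l : List ℕ},
    (tmk tie l).testBit c = true ↔ ∃ p ∈ l, (tie.getD p 0).testBit c = true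
  | [] => by
    show (0 : ℕ).testBit c = true ↔ _
    simp
  | p :: l => by
    have ih := tmk_bit (tie := tie) (c := c) (l := l)
    have e : (tmk tie (p :: l)).testBit c = ((tie.getD p 0).testBit c || (tmk tie l).testBit c) :=
      Nat.testBit_or _ _ _
    rw [e, Bool.or_eq_true, ih]
    simp

theorem dup_false {tie : List ℕ} : ∀ {l : List ℕ},
    l.Pairwise (fun p q => Nat.land (tie.getD p 0) (tie.getD q 0) = 0) → dup tie l = false
  | [], _ => rfl
  | p :: l, h => by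
    obtain ⟨h1, h2⟩ := List.pairwise_cons.1 h
    have h3 : Nat.land (tie.getD p 0) (tmk tie l) = 0 := by
      apply Nat.eq_of_testBit_eq
      intro c
      have e : (Nat.land (tie.getD p 0) (tmk tie l)).testBit c =
        ((tie.getD p 0).testBit c && (tmk tie l).testBit c) := Nat.testBit_and _ _ _
      rw [Nat.zero_testBit, e, ← Bool.not_eq_true, Bool.and_eq_true, tmk_bit]
      rintro ⟨a1, q, hq, a2⟩
      have h4 := h1 q hq
      have h5 : (Nat.land (tie.getD p 0) (tie.getD q 0)).testBit c =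
        ((tie.getD p 0).testBit c && (tie.getD q 0).testBit c) := Nat.testBit_and _ _ _
      rw [h4, a1, a2, Nat.zero_testBit] at h5
      exact absurd h5 (by simp)
    show cond (Nat.beq (Nat.land (tie.getD p 0) (tmk tie l)) 0) (dup tie l) true = false
    rw [h3]
    exact dup_false h2

theorem ties_bit {c : ℕ} : (ties D (td D f Λ)).testBit c = true ↔
    ∃ k, (tcode D (code f (Λ k))).testBit c = true := by
  unfold ties
  rw [tmk_bit]
  constructor
  · rintro ⟨p, hp, h⟩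
    simp only [List.mem_cons, List.not_mem_nil, or_false] at hp
    rcases hp with rfl | rfl | rfl | rfl | rfl | rfl
    exacts [⟨5, h⟩, ⟨4, h⟩, ⟨3, h⟩, ⟨2, h⟩, ⟨1, h⟩, ⟨0, h⟩]
  · rintro ⟨k, h⟩
    refine ⟨td D f Λ k.val, ?_, ?_⟩
    · fin_cases k <;> simp
    · have : (Fin.ofNat 6 k.val : Fin 6) = k := by
        apply Fin.ext
        simp
      unfold td
      rw [this]
      exact h

theorem sing_spec {s : ℕ} (h : sing s = true) : ∃ i < 6, s = 2 ^ i := by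
  unfold sing at h
  simp only [List.any_cons, List.any_nil, Bool.or_false, Bool.or_eq_true, Nat.beq_eq] at h
  rcases h with h | h | h | h | h | h
  exacts [⟨0, by norm_num, h⟩, ⟨1, by norm_num, h⟩, ⟨2, by norm_num, h⟩, ⟨3, by norm_num, h⟩,
    ⟨4, by norm_num, h⟩, ⟨5, by norm_num, h⟩]

theorem enc_tuple (ok : okD D = true) (E : Enc D f M) (S : Sys M A Λ) (Hm : Md D f Λ) :
    Alw D (td D f Λ) := by
  have O := okS ok
  have eqt : ∀ {i j : ℕ}, td D f Λ i = td D f Λ j → Λ (Fin.ofNat 6 i) = Λ (Fin.ofNat 6 j) := by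
    intro i j hij
    refine code_inj E.inj E.lt ?_
    rw [← (td_spec O E S Hm i).2, ← (td_spec O E S Hm j).2, hij]
  refine ⟨⟨fun k _ => (td_spec O E S Hm k).1, rel_nb O E S Hm rfl, rel_nb O E S Hm rfl,
    rel_nb O E S Hm rfl, rel_nb O E S Hm rfl, rel_nb O E S Hm rfl, rel_nb O E S Hm rfl,
    rel_op O E S Hm rfl, rel_op O E S Hm rfl, rel_op O E S Hm rfl⟩, ?_, ?_, ?_⟩
  · rw [← Bool.not_eq_true]
    intro hal
    have h1 : cond (Nat.beq (td D f Λ 5) (td D f Λ 3)) (cond (Nat.beq (td D f Λ 3) (td D f Λ 1))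
      (cond (Nat.beq (td D f Λ 4) (td D f Λ 2)) (cond (Nat.beq (td D f Λ 2) (td D f Λ 0))
      (cond (Nat.ble D.A (td D f Λ 0)) (cond (Nat.ble D.A (td D f Λ 1))
      (sing (Nat.land (D.P.getD (td D f Λ 0) 0) (D.P.getD (td D f Λ 1) 0))) false) false) false)
      false) false) false = true := hal
    obtain ⟨e1, h1⟩ := cond_tt h1
    obtain ⟨e2, h1⟩ := cond_tt h1
    obtain ⟨e3, h1⟩ := cond_tt h1
    obtain ⟨e4, h1⟩ := cond_tt h1
    obtain ⟨e5, h1⟩ := cond_tt h1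
    obtain ⟨e6, h1⟩ := cond_tt h1
    obtain ⟨i, hi, e7⟩ := sing_spec h1
    obtain ⟨a, rfl⟩ := ex_f E.inj E.lt hi
    rw [(td_spec O E S Hm 0).2, (td_spec O E S Hm 1).2, code_and E.inj E.lt,
      ← code_single E.inj E.lt] at e7
    have e8 := code_inj E.inj E.lt e7
    refine S.alt ⟨(eqt (Nat.eq_of_beq_eq_true e4)).symm, (eqt (Nat.eq_of_beq_eq_true e3)).symm,
      (eqt (Nat.eq_of_beq_eq_true e2)).symm, (eqt (Nat.eq_of_beq_eq_true e1)).symm,
      ge_three O E S (Nat.le_of_ble_eq_true e5), ge_three O E S (Nat.le_of_ble_eq_true e6), ?_⟩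
    have e9 : Λ 0 ∩ Λ 1 = {a} := e8
    rw [e9, Set.ncard_singleton]
  · have key : ∀ i j : ℕ, (Fin.ofNat 6 i : Fin 6) ≠ Fin.ofNat 6 j →
        Nat.land (D.tie.getD (td D f Λ i) 0) (D.tie.getD (td D f Λ j) 0) = 0 := by
      intro i j hij
      by_cases he : td D f Λ i = td D f Λ j
      · by_cases h0 : D.tie.getD (td D f Λ i) 0 = 0
        · rw [h0]
          exact Nat.zero_and _
        · exact absurd (Hm.one _ _ h0 (eqt he)) hij
      · exact (O.ne _ (td_spec O E S Hm i).1 _ (td_spec O E S Hm j).1 he).2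
    have hp : ([5, 4, 3, 2, 1, 0] : List ℕ).Pairwise
        (fun i j => (Fin.ofNat 6 i : Fin 6) ≠ Fin.ofNat 6 j) := by decide
    have hq : (([5, 4, 3, 2, 1, 0] : List ℕ).map (td D f Λ)).Pairwise
        (fun p q => Nat.land (D.tie.getD p 0) (D.tie.getD q 0) = 0) :=
      List.pairwise_map.2 (hp.imp fun {i j} hij => key i j hij)
    exact dup_false hq
  · intro k hk c hc hb
    obtain ⟨i, rfl⟩ := ex_f E.inj E.lt hc
    rw [bt_eq, (td_spec O E S Hm k).2, tb E.inj E.lt] at hb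
    obtain ⟨h, hh, hi⟩ := S.span _ i hb
    refine ⟨wd D f h, enc_word ok E (S.leg h hh), enc_blw ok E S Hm hh, ?_⟩
    rw [bt_eq, (wd_spec O E (S.leg h hh) k).2, tb E.inj E.lt]
    exact hi

end Vale.Agent.P032.Words6.H46
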