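import Vale.Agent.P032.Words6.H790.FinF
import Vale.Agent.P032.Words6.H360.Mask
import Vale.Agent.P032.Words6.H46.Code

/-!
# P032: the finite facts about a colour in no letter
-/

open Set

namespace Vale.Agent.P032.Words6.H46

open Vale.Agent.P032.Words6.H790 Vale.Agent.P032.Words6.H360

/-- a numbering with `i` at `0` and `x` at `5` -/
structure Nm (x i : Fin 6) (f : Fin 6 → ℕ) : Prop where
  inj : Function.Injective f
  lt : ∀ j, f j < 6
  fi : f i = 0
  fx : f x = 5

theorem exists_nm {x i : Fin 6} (h : i ≠ x) : ∃ f, Nm x i f := by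
  have key : ∀ x i : Fin 6, i ≠ x →
      (((Equiv.swap i 0).trans (Equiv.swap ((Equiv.swap i 0) x) 5)) i = 0 ∧
      ((Equiv.swap i 0).trans (Equiv.swap ((Equiv.swap i 0) x) 5)) x = 5) := by decide +kernel
  obtain ⟨h1, h2⟩ := key x i h
  refine ⟨fun j => (((Equiv.swap i 0).trans (Equiv.swap ((Equiv.swap i 0) x) 5)) j).val,
    fun a b hab => ?_, fun j => Fin.isLt _, ?_, ?_⟩
  · exact (Equiv.injective _) (Fin.ext hab)
  · show (((Equiv.swap i 0).trans (Equiv.swap ((Equiv.swap i 0) x) 5)) i).val = 0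
    rw [h1]; rfl
  · show (((Equiv.swap i 0).trans (Equiv.swap ((Equiv.swap i 0) x) 5)) x).val = 5
    rw [h2]; rfl

variable {x i : Fin 6} {f : Fin 6 → ℕ} {t h g : Fin 6 → Set (Fin 6)}

theorem Nm.lt5 (N : Nm x i f) {j : Fin 6} (hj : j ≠ x) : f j < 5 := by
  have h1 := N.lt j
  have h2 : f j ≠ 5 := fun h => hj (N.inj (h.trans N.fx.symm))
  omega

theorem Nm.pos (N : Nm x i f) {j : Fin 6} (hj : j ≠ i) : 0 < f j := by
  have h2 : f j ≠ 0 := fun h => hj (N.inj (h.trans N.fi.symm))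
  omega

theorem code_tri' (hi : Function.Injective f) (hl : ∀ i, f i < 6) (a b c : Fin 6) :
    code f {a, b, c} = 2 ^ f a ||| 2 ^ f b ||| 2 ^ f c := by
  have l1 : (2 : ℕ) ^ f a < 2 ^ 6 := Nat.pow_lt_pow_right (by norm_num) (hl a)
  have l2 : (2 : ℕ) ^ f b < 2 ^ 6 := Nat.pow_lt_pow_right (by norm_num) (hl b)
  have l3 : (2 : ℕ) ^ f c < 2 ^ 6 := Nat.pow_lt_pow_right (by norm_num) (hl c)
  refine ext_mask hi hl (code_lt f _) (Nat.or_lt_two_pow (Nat.or_lt_two_pow l1 l2) l3) fun i => ?_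
  rw [tb hi hl, Nat.testBit_or, Nat.testBit_or, Bool.or_eq_true, Bool.or_eq_true,
    Nat.testBit_two_pow, Nat.testBit_two_pow, Nat.testBit_two_pow,
    decide_eq_true_iff, decide_eq_true_iff, decide_eq_true_iff, Set.mem_insert_iff,
    Set.mem_insert_iff, Set.mem_singleton_iff]
  constructor
  · rintro (rfl | rfl | rfl)
    · exact Or.inl (Or.inl rfl)
    · exact Or.inl (Or.inr rfl)
    · exact Or.inr rfl
  · rintro ((h | h) | h)
    · exact Or.inl (hi h).symm
    · exact Or.inr (Or.inl (hi h).symm)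
    · exact Or.inr (Or.inr (hi h).symm)

theorem fin_L2 : ∀ p < 5, ∀ q < 5, p ≠ q → 2 ^ p ||| 2 ^ q ∈ L2 := by decide
theorem fin_L3' : ∀ p q r : Fin 5, p ≠ q → p ≠ r → q ≠ r →
    2 ^ p.val ||| 2 ^ q.val ||| 2 ^ r.val ∈ L3 := by decide
theorem fin_L3 {p q r : ℕ} (hp : p < 5) (hq : q < 5) (hr : r < 5) (h1 : p ≠ q) (h2 : p ≠ r)
    (h3 : q ≠ r) : 2 ^ p ||| 2 ^ q ||| 2 ^ r ∈ L3 :=
  fin_L3' ⟨p, hp⟩ ⟨q, hq⟩ ⟨r, hr⟩ (fun h => h1 (congrArg Fin.val h))
    (fun h => h2 (congrArg Fin.val h)) (fun h => h3 (congrArg Fin.val h))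

theorem memL2 (N : Nm x i f) {s : Set (Fin 6)} (h2 : s.ncard = 2) (hx : x ∉ s) :
    code f s ∈ L2 := by
  obtain ⟨a, b, hab, rfl⟩ := Set.ncard_eq_two.1 h2
  rw [code_pair N.inj N.lt]
  refine fin_L2 _ (N.lt5 ?_) _ (N.lt5 ?_) fun h => hab (N.inj h)
  · rintro rfl; exact hx (Or.inl rfl)
  · rintro rfl; exact hx (Or.inr rfl)

theorem memL3 (N : Nm x i f) {s : Set (Fin 6)} (h2 : s.ncard = 3) (hx : x ∉ s) :
    code f s ∈ L3 := by
  obtain ⟨a, b, c, hab, hac, hbc, rfl⟩ := Set.ncard_eq_three.1 h2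
  rw [code_tri' N.inj N.lt]
  refine fin_L3 (N.lt5 ?_) (N.lt5 ?_) (N.lt5 ?_) (fun h => hab (N.inj h))
    (fun h => hac (N.inj h)) fun h => hbc (N.inj h)
  · rintro rfl; exact hx (Or.inl rfl)
  · rintro rfl; exact hx (Or.inr (Or.inl rfl))
  · rintro rfl; exact hx (Or.inr (Or.inr rfl))

theorem any_beq {L : List ℕ} {a : ℕ} : L.any (Nat.beq a) = true ↔ a ∈ L := by
  rw [List.any_eq_true]
  constructor
  · rintro ⟨b, hb, h⟩
    rw [Nat.eq_of_beq_eq_true h]
    exact hb
  · intro h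
    exact ⟨a, h, Nat.beq_refl _⟩

theorem dj_of (N : Nm x i f) {s u : Set (Fin 6)} (hd : Disjoint s u) :
    dj (code f s) (code f u) = true := by
  unfold dj
  rw [code_and N.inj N.lt, Set.disjoint_iff_inter_eq_empty.1 hd, code_empty N.inj N.lt]
  rfl

theorem op_of (N : Nm x i f) {s u : Set (Fin 6)} (hj : ∃ j, j ≠ x ∧ j ≠ i ∧ j ∉ s ∧ j ∉ u) :
    op (code f s) (code f u) = true := by
  obtain ⟨j, h1, h2, h3, h4⟩ := hj
  unfold op
  have h5 : Nat.beq (Nat.lor (code f s) (code f u)) 30 = false := by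
    rw [← Bool.not_eq_true, Nat.beq_eq]
    intro h
    have h6 : (Nat.lor (code f s) (code f u)).testBit (f j) =
      ((code f s).testBit (f j) || (code f u).testBit (f j)) := Nat.testBit_or _ _ _
    have h7 : (code f s).testBit (f j) = false := by
      rw [← Bool.not_eq_true, tb N.inj N.lt]; exact h3
    have h8 : (code f u).testBit (f j) = false := by
      rw [← Bool.not_eq_true, tb N.inj N.lt]; exact h4
    have h9 : ∀ m < 5, 0 < m → Nat.testBit 30 m = true := by decide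
    rw [h, h7, h8, h9 _ (N.lt5 h1) (N.pos h2)] at h6
    exact absurd h6 (by decide)
  rw [h5]
  rfl

theorem nb_of (N : Nm x i f) (B : Bx x t) (k : Fin 6) :
    nbM (code f (t k)) (code f (t (k + 1))) = true := by
  obtain ⟨h1, h2, h3, h4⟩ := B k
  obtain ⟨g1, g2, -, -⟩ := B (k + 1)
  unfold nbM
  by_cases hd : Disjoint (t k) (t (k + 1))
  · have := dj_of N hd
    unfold dj at this
    rw [this]
    rfl
  · have c1 : (t k).ncard = 3 := by
      rcases h2 with h2 | h2
      · exact absurd (h3 (Or.inl h2)) hd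
      · exact h2
    have c2 : (t (k + 1)).ncard = 3 := by
      rcases g2 with h2 | h2
      · exact absurd (h3 (Or.inr h2)) hd
      · exact h2
    rw [any_beq.2 (memL3 N c1 h1), any_beq.2 (memL3 N c2 g1)]
    have h5 : Nat.beq (Nat.land (Nat.land (code f (t k)) (code f (t (k + 1))))
        (Nat.pred (Nat.land (code f (t k)) (code f (t (k + 1)))))) 0 = true := by
      rw [code_and N.inj N.lt]
      rcases Nat.lt_or_ge 0 (t k ∩ t (k + 1)).ncard with h6 | h6
      · obtain ⟨a, ha⟩ := Set.ncard_eq_one.1 (show (t k ∩ t (k + 1)).ncard = 1 by omega)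
        rw [ha, code_single N.inj N.lt]
        have : ∀ m < 6, Nat.beq (Nat.land (2 ^ m) (Nat.pred (2 ^ m))) 0 = true := by decide
        exact this _ (N.lt a)
      · have h7 : t k ∩ t (k + 1) = ∅ := (Set.ncard_eq_zero (Set.toFinite _)).1 (by omega)
        rw [h7, code_empty N.inj N.lt]
        rfl
    rw [h5]
    cases Nat.beq (Nat.land (code f (t k)) (code f (t (k + 1)))) 0 <;> rfl

theorem lets_of (N : Nm x i f) {s u : Set (Fin 6)} (h2 : s.ncard = 2) (hx : x ∉ u) (hs : s ⊆ u) :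
    code f s ∈ lets (code f u) := by
  unfold lets
  refine List.mem_filter.2 ⟨memL2 N h2 fun h => hx (hs h), ?_⟩
  rw [code_and N.inj N.lt, Set.inter_eq_left.2 hs]
  exact Nat.beq_refl _

theorem word_of (N : Nm x i f) (B : Bx x t) (L : Lg x i t h)
    {p : ℕ → ℕ → ℕ → ℕ → ℕ → ℕ → Bool}
    (hp : allW (lets (code f (t 0))) (lets (code f (t 1))) (lets (code f (t 2)))
      (lets (code f (t 3))) (lets (code f (t 4))) (lets (code f (t 5))) p = true) :
    p (code f (h 0)) (code f (h 1)) (code f (h 2)) (code f (h 3)) (code f (h 4))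
      (code f (h 5)) = true := by
  have m : ∀ k, code f (h k) ∈ lets (code f (t k)) := fun k =>
    lets_of N (L k).1 (B k).1 (L k).2.1
  have d : ∀ k, dj (code f (h k)) (code f (h (k + 1))) = true := fun k => dj_of N (L k).2.2.1
  have o : ∀ k, op (code f (h k)) (code f (h (k + 3))) = true := fun k => op_of N (L k).2.2.2
  exact allW_iff hp (m 0) (m 1) (m 2) (m 3) (m 4) (m 5) (d 0) (d 1) (d 2) (d 3) (d 4) (d 5)
    (o 0) (o 1) (o 2)

theorem box_of (N : Nm x i f) (B : Bx x t) {L : List ℕ} (m : ∀ k, code f (t k) ∈ L)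
    {p : ℕ → ℕ → ℕ → ℕ → ℕ → ℕ → Bool} (hp : allB L p = true) :
    p (code f (t 0)) (code f (t 1)) (code f (t 2)) (code f (t 3)) (code f (t 4))
      (code f (t 5)) = true :=
  allB_iff hp (m 0) (m 1) (m 2) (m 3) (m 4) (m 5) (nb_of N B 0) (nb_of N B 1) (nb_of N B 2)
    (nb_of N B 3) (nb_of N B 4) (nb_of N B 5)

/-! ### The class -/

/-- the value of the word -/
noncomputable def cw (f : Fin 6 → ℕ) (h : Fin 6 → Set (Fin 6)) : ℕ :=
  clM (code f (h 0)) (code f (h 1)) (code f (h 2)) (code f (h 3)) (code f (h 4)) (code f (h 5))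

/-- the class from the bits -/
def clB (a b c d e f : Bool) : ℕ :=
  if b = false ∧ d = false ∧ f = false then 0 else if a = false ∧ c = false ∧ e = false then 1
  else if a = true then 2 else if b = true then 3 else 4

/-- the value from the bits -/
def clN (a b c d e f : Bool) : ℕ := clM a.toNat b.toNat c.toNat d.toNat e.toNat f.toNat

theorem clN_eq : ∀ a b c d e f a' b' c' d' e' f' : Bool,
    clN a b c d e f = clN a' b' c' d' e' f' → clB a b c d e f = clB a' b' c' d' e' f' := by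
  decide +kernel

theorem clB_eq : ∀ a b c d e f a' b' c' d' e' f' : Bool,
    clN a b c d e f ∈ [0, 1, 11, 20, 38] → clN a' b' c' d' e' f' ∈ [0, 1, 11, 20, 38] →
    clB a b c d e f = clB a' b' c' d' e' f' → clN a b c d e f = clN a' b' c' d' e' f' := by
  decide +kernel

/-- the bit of `i` -/
noncomputable def bi (i : Fin 6) (s : Set (Fin 6)) : Bool := by
  classical exact decide (i ∈ s)

theorem bi_true {s : Set (Fin 6)} : bi i s = true ↔ i ∈ s := by
  classical
  unfold bi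
  exact decide_eq_true_iff

theorem land_bi (N : Nm x i f) (s : Set (Fin 6)) : Nat.land (code f s) 1 = (bi i s).toNat := by
  have h1 : Nat.land (code f s) 1 = (code f s) % 2 := Nat.and_one_is_mod _
  have h2 := tb N.inj N.lt s i
  rw [N.fi, Nat.testBit_zero, decide_eq_true_iff] at h2
  rw [h1]
  by_cases hs : i ∈ s
  · rw [h2.2 hs, bi_true.2 hs]
    rfl
  · have h3 : bi i s = false := by rw [← Bool.not_eq_true, bi_true]; exact hs
    have h4 : ¬ (code f s) % 2 = 1 := fun h => hs (h2.1 h)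
    rw [h3]
    show (code f s) % 2 = 0
    omega

theorem cw_bits (N : Nm x i f) : cw f h =
    clN (bi i (h 0)) (bi i (h 1)) (bi i (h 2)) (bi i (h 3)) (bi i (h 4)) (bi i (h 5)) := by
  have h1 : ∀ b : Bool, Nat.land b.toNat 1 = b.toNat := by decide
  unfold cw clN clM zM
  rw [land_bi N, land_bi N, land_bi N, land_bi N, land_bi N, land_bi N, h1, h1, h1, h1, h1, h1]

theorem cls_bits : cls i h =
    clB (bi i (h 0)) (bi i (h 1)) (bi i (h 2)) (bi i (h 3)) (bi i (h 4)) (bi i (h 5)) := by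
  classical
  have e : ∀ s : Set (Fin 6), i ∈ s ↔ bi i s = true := fun s => bi_true.symm
  have e0 : (∀ k : Fin 6, i ∈ h k → k.val % 2 = 0) ↔
      (bi i (h 1) = false ∧ bi i (h 3) = false ∧ bi i (h 5) = false) := by
    simp only [e]
    constructor
    · intro H
      refine ⟨?_, ?_, ?_⟩
      · rw [← Bool.not_eq_true]; exact fun h' => absurd (H 1 h') (by decide)
      · rw [← Bool.not_eq_true]; exact fun h' => absurd (H 3 h') (by decide)
      · rw [← Bool.not_eq_true]; exact fun h' => absurd (H 5 h') (by decide)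
    · rintro ⟨h1, h3, h5⟩ k hk
      fin_cases k
      · rfl
      · exact absurd (hk.symm.trans h1) (by decide)
      · rfl
      · exact absurd (hk.symm.trans h3) (by decide)
      · rfl
      · exact absurd (hk.symm.trans h5) (by decide)
  have e1 : (∀ k : Fin 6, i ∈ h k → k.val % 2 = 1) ↔
      (bi i (h 0) = false ∧ bi i (h 2) = false ∧ bi i (h 4) = false) := by
    simp only [e]
    constructor
    · intro H
      refine ⟨?_, ?_, ?_⟩
      · rw [← Bool.not_eq_true]; exact fun h' => absurd (H 0 h') (by decide)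
      · rw [← Bool.not_eq_true]; exact fun h' => absurd (H 2 h') (by decide)
      · rw [← Bool.not_eq_true]; exact fun h' => absurd (H 4 h') (by decide)
    · rintro ⟨h1, h3, h5⟩ k hk
      fin_cases k
      · exact absurd (hk.symm.trans h1) (by decide)
      · rfl
      · exact absurd (hk.symm.trans h3) (by decide)
      · rfl
      · exact absurd (hk.symm.trans h5) (by decide)
      · rfl
  unfold cls clB
  simp only [e0, e1]
  simp only [e]

theorem cls_of_cw (N : Nm x i f) (hc : cw f h = cw f g) : cls i h = cls i g := by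
  rw [cw_bits N, cw_bits N] at hc
  rw [cls_bits, cls_bits]
  exact clN_eq _ _ _ _ _ _ _ _ _ _ _ _ hc

theorem one_spec (N : Nm x i f) (B : Bx x t)
    (h1 : one (code f (t 0)) (code f (t 1)) (code f (t 2)) (code f (t 3)) (code f (t 4))
      (code f (t 5)) = true) : ∃ c ∈ [0, 1, 11, 20, 38], ∀ h, Lg x i t h → cw f h = c := by
  unfold one at h1
  obtain ⟨c, hc, h2⟩ := List.any_eq_true.1 h1
  refine ⟨c, hc, fun h L => ?_⟩
  exact Nat.eq_of_beq_eq_true (word_of N B L h2)

theorem f1 (hxi : i ≠ x) : F1 x i (cls i) := by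
  obtain ⟨f, N⟩ := exists_nm hxi
  rintro t h g B ⟨k, hk⟩ L L'
  have m : ∀ k, code f (t k) ∈ L2 ++ L3 := by
    intro k
    rcases (B k).2.1 with h2 | h3
    · exact List.mem_append_left _ (memL2 N h2 (B k).1)
    · exact List.mem_append_right _ (memL3 N h3 (B k).1)
  have h1 := box_of N B m chk1_true
  have hk2 : code f (t k) ∉ L3 := by
    have := memL2 N hk (B k).1
    have h3 : ∀ m ∈ L2, m ∉ L3 := by decide
    exact h3 _ this
  have hs : sixT (code f (t 0)) (code f (t 1)) (code f (t 2)) (code f (t 3)) (code f (t 4))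
      (code f (t 5)) = false := by
    rw [← Bool.not_eq_true]
    intro hs
    have key : ∀ {b c : Bool}, cond b c false = true → b = true ∧ c = true := by decide
    unfold sixT at hs
    obtain ⟨s0, hs⟩ := key hs
    obtain ⟨s1, hs⟩ := key hs
    obtain ⟨s2, hs⟩ := key hs
    obtain ⟨s3, hs⟩ := key hs
    obtain ⟨s4, s5⟩ := key hs
    rw [any_beq] at s0 s1 s2 s3 s4 s5
    fin_cases k
    exacts [hk2 s0, hk2 s1, hk2 s2, hk2 s3, hk2 s4, hk2 s5]
  rw [hs, cond_false] at h1
  obtain ⟨c, -, hc⟩ := one_spec N B h1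
  exact cls_of_cw N ((hc h L).trans (hc g L').symm)

/-- the word as a box -/
theorem bx_self (B : Bx x t) (L : Lg x i t h) : Bx x h := fun k =>
  ⟨fun hx => (B k).1 ((L k).2.1 hx), Or.inl (L k).1, fun _ => (L k).2.2.1, by
    rw [Set.disjoint_iff_inter_eq_empty.1 (L k).2.2.1, Set.ncard_empty]
    exact Nat.zero_le _⟩

theorem lg_self (L : Lg x i t h) : Lg x i h h := fun k =>
  ⟨(L k).1, subset_rfl, (L k).2.2⟩

theorem lg_rot (L : Lg x i t h) : Lg x i (fun k => t (k + 1)) (fun k => h (k + 1)) := fun k =>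
  ⟨(L (k + 1)).1, (L (k + 1)).2.1, (L (k + 1)).2.2.1, by
    have := (L (k + 1)).2.2.2
    rwa [add_right_comm] at this⟩

theorem bx_rot (B : Bx x t) : Bx x (fun k => t (k + 1)) := fun k => B (k + 1)

theorem cw_five (N : Nm x i f) (B : Bx x t) (L : Lg x i t h) : cw f h ∈ [0, 1, 11, 20, 38] := by
  have B' := bx_self B L
  have L' := lg_self L
  have m : ∀ k, code f (h k) ∈ L2 ++ L3 := fun k =>
    List.mem_append_left _ (memL2 N (L k).1 (B' k).1)
  have h1 := box_of N B' m chk1_true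
  have hs : sixT (code f (h 0)) (code f (h 1)) (code f (h 2)) (code f (h 3)) (code f (h 4))
      (code f (h 5)) = false := by
    have h3 : ∀ m ∈ L2, L3.any (Nat.beq m) = false := by decide
    unfold sixT
    rw [h3 _ (memL2 N (L 0).1 (B' 0).1)]
    rfl
  rw [hs, cond_false] at h1
  obtain ⟨c, hc, hc'⟩ := one_spec N B' h1
  rw [hc' h L']
  exact hc

theorem rt (hxi : i ≠ x) : Rt x i (cls i) := by
  obtain ⟨f, N⟩ := exists_nm hxi
  intro t h B L he
  have B' := bx_self B L
  have mm : ∀ k, code f (h k) ∈ L2 := fun k => memL2 N (L k).1 (B' k).1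
  have d : ∀ k, dj (code f (h k)) (code f (h (k + 1))) = true := fun k => dj_of N (L k).2.2.1
  have o : ∀ k, op (code f (h k)) (code f (h (k + 3))) = true := fun k => op_of N (L k).2.2.2
  have h1 := allW_iff chk0_true (mm 0) (mm 1) (mm 2) (mm 3) (mm 4) (mm 5) (d 0) (d 1) (d 2)
    (d 3) (d 4) (d 5) (o 0) (o 1) (o 2)
  have c1 := cw_five N B L
  have c2 := cw_five N (bx_rot B) (lg_rot L)
  have h2 : cw f (fun k => h (k + 1)) = cw f h := by
    rw [cls_bits, cls_bits] at he
    rw [cw_bits N] at c1 c2 ⊢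
    rw [cw_bits N]
    exact clB_eq _ _ _ _ _ _ _ _ _ _ _ _ c2 c1 he
  have h3 : Nat.beq (cw f h) (cw f (fun k => h (k + 1))) = true := by
    rw [h2]; exact Nat.beq_refl _
  have h4 : cond (Nat.beq (cw f h) (cw f (fun k => h (k + 1)))) false true = true := h1
  rw [h3] at h4
  exact absurd h4 (by decide)


/-! ### Six triples -/

theorem cond_key {b c : Bool} (h : cond b c false = true) : b = true ∧ c = true := by
  revert b c; decide

theorem has_spec (N : Nm x i f) {m : ℕ} {s : Set (Fin 6)} (hs : code f s = m)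
    (hm : has m (code f (h 0)) (code f (h 1)) (code f (h 2)) (code f (h 3)) (code f (h 4))
      (code f (h 5)) (code f (g 0)) (code f (g 1)) (code f (g 2)) (code f (g 3)) (code f (g 4))
      (code f (g 5)) = true) : ∃ k, h k = s ∨ g k = s := by
  unfold has at hm
  rw [any_beq] at hm
  have key : ∀ {u : Set (Fin 6)}, m = code f u → u = s := fun e =>
    code_inj N.inj N.lt (e.symm.trans hs.symm)
  simp only [List.mem_cons, List.not_mem_nil, or_false] at hm
  rcases hm with e | e | e | e | e | e | e | e | e | e | e | e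
  exacts [⟨0, Or.inl (key e)⟩, ⟨1, Or.inl (key e)⟩, ⟨2, Or.inl (key e)⟩, ⟨3, Or.inl (key e)⟩,
    ⟨4, Or.inl (key e)⟩, ⟨5, Or.inl (key e)⟩, ⟨0, Or.inr (key e)⟩, ⟨1, Or.inr (key e)⟩,
    ⟨2, Or.inr (key e)⟩, ⟨3, Or.inr (key e)⟩, ⟨4, Or.inr (key e)⟩, ⟨5, Or.inr (key e)⟩]

theorem prm_spec : ∀ q ∈ prm, ∃ r s c d : Fin 5, q = (2 ^ r.val, 2 ^ s.val, 2 ^ c.val, 2 ^ d.val) ∧
    r ≠ 0 ∧ s ≠ 0 ∧ c ≠ 0 ∧ d ≠ 0 ∧ r ≠ s ∧ r ≠ c ∧ r ≠ d ∧ s ≠ c ∧ s ≠ d ∧ c ≠ d := by
  decide +kernel

theorem all_spec (r s c d : Fin 5) (r0 : r ≠ 0) (s0 : s ≠ 0) (c0 : c ≠ 0) (d0 : d ≠ 0)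
    (rs : r ≠ s) (rc : r ≠ c) (rd : r ≠ d) (sc : s ≠ c) (sd : s ≠ d) (cd : c ≠ d) (j : Fin 6) :
    j.val = 5 ∨ j.val = 0 ∨ j.val = r.val ∨ j.val = s.val ∨ j.val = c.val ∨ j.val = d.val := by
  have h1 := r.isLt
  have h2 := s.isLt
  have h3 := c.isLt
  have h4 := d.isLt
  have h5 := j.isLt
  have e : ∀ {a b : Fin 5}, a ≠ b → a.val ≠ b.val := fun h h' => h (Fin.ext h')
  have a1 := e r0
  have a2 := e s0
  have a3 := e c0
  have a4 := e d0
  have a5 := e rs
  have a6 := e rc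
  have a7 := e rd
  have a8 := e sc
  have a9 := e sd
  have a10 := e cd
  simp only [Fin.val_zero] at a1 a2 a3 a4
  omega

theorem s3 : ∀ r d : Fin 5, r ≠ 0 → d ≠ 0 → r ≠ d →
    1 + 2 ^ r.val + 2 ^ d.val = 2 ^ r.val ||| 2 ^ 0 ||| 2 ^ d.val := by decide
theorem s2 : ∀ r d : Fin 5, r ≠ d → 2 ^ r.val + 2 ^ d.val = 2 ^ r.val ||| 2 ^ d.val := by decide
theorem s1 : ∀ r : Fin 5, r ≠ 0 → 2 ^ r.val + 1 = 2 ^ r.val ||| 2 ^ 0 := by decide

theorem blk_spec (N : Nm x i f) {a a' b b' e e' : ℕ} {w : ℕ → ℕ → Bool} {l : ℕ → Bool}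
    (hb : blk a a' b b' e e' w l = true) : ∃ r s c d : Fin 6,
      (∀ j, j = x ∨ j = i ∨ j = r ∨ j = s ∨ j = c ∨ j = d) ∧ a = code f {r, i, d} ∧
      a' = code f {s, i, c} ∧ b = code f {r, d} ∧ b' = code f {s, i} ∧ e = code f {r, i} ∧
      e' = code f {s, c} ∧ l (code f {c, d}) = true ∧ w (code f {r}) (code f {s}) = true := by
  unfold blk at hb
  obtain ⟨q, hq, hb⟩ := List.any_eq_true.1 hb
  obtain ⟨r, s, c, d, rfl, r0, s0, c0, d0, rs, rc, rd, sc, sd, cd⟩ := prm_spec q hq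
  obtain ⟨e1, hb⟩ := cond_key hb
  obtain ⟨e2, hb⟩ := cond_key hb
  obtain ⟨e3, hb⟩ := cond_key hb
  obtain ⟨e4, hb⟩ := cond_key hb
  obtain ⟨e5, hb⟩ := cond_key hb
  obtain ⟨e6, hb⟩ := cond_key hb
  obtain ⟨e7, e8⟩ := cond_key hb
  obtain ⟨r', hr⟩ := ex_f N.inj N.lt (show r.val < 6 by omega)
  obtain ⟨s', hs⟩ := ex_f N.inj N.lt (show s.val < 6 by omega)
  obtain ⟨c', hc⟩ := ex_f N.inj N.lt (show c.val < 6 by omega)
  obtain ⟨d', hd⟩ := ex_f N.inj N.lt (show d.val < 6 by omega)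
  refine ⟨r', s', c', d', ?_, ?_, ?_, ?_, ?_, ?_, ?_, ?_, ?_⟩
  · intro j
    rcases all_spec r s c d r0 s0 c0 d0 rs rc rd sc sd cd ⟨f j, N.lt j⟩ with h | h | h | h | h | h
    · exact Or.inl (N.inj (h.trans N.fx.symm))
    · exact Or.inr (Or.inl (N.inj (h.trans N.fi.symm)))
    · exact Or.inr (Or.inr (Or.inl (N.inj (h.trans hr.symm))))
    · exact Or.inr (Or.inr (Or.inr (Or.inl (N.inj (h.trans hs.symm)))))
    · exact Or.inr (Or.inr (Or.inr (Or.inr (Or.inl (N.inj (h.trans hc.symm))))))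
    · exact Or.inr (Or.inr (Or.inr (Or.inr (Or.inr (N.inj (h.trans hd.symm))))))
  · rw [code_tri' N.inj N.lt, hr, N.fi, hd, Nat.eq_of_beq_eq_true e1]
    exact s3 r d r0 d0 rd
  · rw [code_tri' N.inj N.lt, hs, N.fi, hc, Nat.eq_of_beq_eq_true e2]
    exact s3 s c s0 c0 sc
  · rw [code_pair N.inj N.lt, hr, hd, Nat.eq_of_beq_eq_true e3]
    exact s2 r d rd
  · rw [code_pair N.inj N.lt, hs, N.fi, Nat.eq_of_beq_eq_true e4]
    exact s1 s s0
  · rw [code_pair N.inj N.lt, hr, N.fi, Nat.eq_of_beq_eq_true e5]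
    exact s1 r r0
  · rw [code_pair N.inj N.lt, hs, hc, Nat.eq_of_beq_eq_true e6]
    exact s2 s c sc
  · rw [code_pair N.inj N.lt, hc, hd, ← s2 c d cd]
    exact e7
  · rw [code_single N.inj N.lt, code_single N.inj N.lt, hr, hs]
    exact e8

theorem mem_of_land (N : Nm x i f) {s : Set (Fin 6)} {r : Fin 6}
    (h : Nat.beq (Nat.land (code f s) (code f {r})) (code f {r}) = true) : r ∈ s := by
  rw [Nat.beq_eq, code_and N.inj N.lt] at h
  have h2 := code_inj N.inj N.lt h
  have h3 : r ∈ s ∩ {r} := by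
    rw [h2]
    exact Set.mem_singleton r
  exact h3.1

theorem blk0_spec (N : Nm x i f) (B : Bx x t)
    (hb : blk0 (code f (t 0)) (code f (t 1)) (code f (t 2)) (code f (t 3)) (code f (t 4))
      (code f (t 5)) (code f (h 0)) (code f (h 1)) (code f (h 2)) (code f (h 3)) (code f (h 4))
      (code f (h 5)) (code f (g 0)) (code f (g 1)) (code f (g 2)) (code f (g 3)) (code f (g 4))
      (code f (g 5)) = true) : ∃ k : Fin 6, (k = 0 ∨ k = 3) ∧ BL x i t h g k := by
  have inj : ∀ {u v : Set (Fin 6)}, code f u = code f v → u = v := fun e =>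
    code_inj N.inj N.lt e
  have key : ∀ {b c : Bool}, cond b true c = true → b = true ∨ c = true := by decide
  unfold blk0 at hb
  rcases key hb with hb | hb
  · obtain ⟨r, s, c, d, h1, h2, h3, h4, h5, h6, h7, h8, h9⟩ := blk_spec N hb
    refine ⟨0, Or.inl rfl, r, s, c, d, h1, (inj h2).subset, (inj h3).subset, inj h4, inj h5,
      inj h6, inj h7, has_spec N rfl h8, fun w Lw => ?_⟩
    obtain ⟨k1, k2⟩ := cond_key (word_of N B Lw h9)
    exact ⟨mem_of_land N k1, mem_of_land N k2⟩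
  · obtain ⟨r, s, c, d, h1, h2, h3, h4, h5, h6, h7, h8, h9⟩ := blk_spec N hb
    refine ⟨3, Or.inr rfl, r, s, c, d, h1, (inj h2).subset, (inj h3).subset, inj h4, inj h5,
      inj h6, inj h7, has_spec N rfl h8, fun w Lw => ?_⟩
    obtain ⟨k1, k2⟩ := cond_key (word_of N B Lw h9)
    exact ⟨mem_of_land N k1, mem_of_land N k2⟩

theorem bl_shift {k : Fin 6}
    (hb : BL x i (fun k => t (k + 1)) (fun k => h (k + 1)) (fun k => g (k + 1)) k) :
    BL x i t h g (k + 1) := by
  obtain ⟨r, s, c, d, h1, h2, h3, h4, h5, h6, h7, ⟨j, hj⟩, h9⟩ := hb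
  have e : k + 1 + 3 = k + 3 + 1 := add_right_comm _ _ _
  refine ⟨r, s, c, d, h1, h2, ?_, h4, ?_, h6, ?_, ⟨j + 1, hj⟩, fun w Lw => ?_⟩
  · rw [e]; exact h3
  · rw [e]; exact h5
  · rw [e]; exact h7
  · rw [e]; exact h9 (fun k => w (k + 1)) (lg_rot Lw)

/-- one of the two orders -/
def BB (x i : Fin 6) (t h g : Fin 6 → Set (Fin 6)) (k : Fin 6) : Prop :=
  BL x i t h g k ∨ BL x i t g h k

theorem bb_shift {k : Fin 6}
    (hb : BB x i (fun k => t (k + 1)) (fun k => h (k + 1)) (fun k => g (k + 1)) k) :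
    BB x i t h g (k + 1) := by
  rcases hb with hb | hb
  · exact Or.inl (bl_shift hb)
  · exact Or.inr (bl_shift hb)

theorem blkS_spec (N : Nm x i f) (B : Bx x t)
    (hb : blkS (code f (t 0)) (code f (t 1)) (code f (t 2)) (code f (t 3)) (code f (t 4))
      (code f (t 5)) (code f (h 0)) (code f (h 1)) (code f (h 2)) (code f (h 3)) (code f (h 4))
      (code f (h 5)) (code f (g 0)) (code f (g 1)) (code f (g 2)) (code f (g 3)) (code f (g 4))
      (code f (g 5)) = true) : ∃ k : Fin 6, (k = 0 ∨ k = 3) ∧ BB x i t h g k := by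
  have key : ∀ {b c : Bool}, cond b true c = true → b = true ∨ c = true := by decide
  unfold blkS at hb
  rcases key hb with hb | hb
  · obtain ⟨k, h1, h2⟩ := blk0_spec N B hb
    exact ⟨k, h1, Or.inl h2⟩
  · obtain ⟨k, h1, h2⟩ := blk0_spec N B hb
    exact ⟨k, h1, Or.inr h2⟩

theorem f2 (hxi : i ≠ x) : F2 x i (cls i) := by
  obtain ⟨f, N⟩ := exists_nm hxi
  intro t h g B h3 L L' hne
  have key : ∀ {b c : Bool}, cond b true c = true → b = true ∨ c = true := by decide
  have c1 := box_of N B (fun k => memL3 N (h3 k) (B k).1) chk2_true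
  rcases key c1 with c1 | c1
  · obtain ⟨c, -, hc⟩ := one_spec N B c1
    exact absurd (cls_of_cw N ((hc h L).trans (hc g L').symm)) hne
  rcases key c1 with c1 | c1
  · left
    unfold altM at c1
    obtain ⟨e1, c1⟩ := cond_key c1
    obtain ⟨e2, c1⟩ := cond_key c1
    obtain ⟨e3, c1⟩ := cond_key c1
    obtain ⟨e4, e5⟩ := cond_key c1
    have q1 := code_inj N.inj N.lt (Nat.eq_of_beq_eq_true e1)
    have q2 := code_inj N.inj N.lt (Nat.eq_of_beq_eq_true e2)
    have q3 := code_inj N.inj N.lt (Nat.eq_of_beq_eq_true e3)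
    have q4 := code_inj N.inj N.lt (Nat.eq_of_beq_eq_true e4)
    refine ⟨t 0, t 1, h3 0, h3 1, (B 0).1, (B 1).1, ?_, ?_⟩
    · refine code_inj N.inj N.lt ?_
      rw [← code_and N.inj N.lt, code_single N.inj N.lt, N.fi]
      exact Nat.eq_of_beq_eq_true e5
    · intro k
      fin_cases k
      · rfl
      · rfl
      · exact q1.symm
      · exact q3.symm
      · exact (q1.trans q2).symm
      · exact (q3.trans q4).symm
  have c2 := word_of N B L c1
  have c3 := word_of N B L' c2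
  rcases key c3 with c3 | c3
  · exact absurd (cls_of_cw N (Nat.eq_of_beq_eq_true c3)) hne
  rcases key c3 with c3 | c3
  · right
    left
    unfold cut at c3
    obtain ⟨A, hA, c3⟩ := List.any_eq_true.1 c3
    have hA64 : A < 64 := by
      have : ∀ m ∈ L2, m < 64 := by decide
      exact this A hA
    have hcode := mask_of N.inj N.lt hA64
    generalize hS : {j | A.testBit (f j) = true} = S at hcode
    have hbits : ∀ m ∈ L2, ∃ p < 5, ∃ q < 5, p ≠ q ∧ m = 2 ^ p ||| 2 ^ q := by decide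
    obtain ⟨p, hp, q, hq, hpq, hm⟩ := hbits A hA
    obtain ⟨a, rfl⟩ := ex_f N.inj N.lt (show p < 6 by omega)
    obtain ⟨b, rfl⟩ := ex_f N.inj N.lt (show q < 6 by omega)
    have hab : a ≠ b := fun h => hpq (by rw [h])
    have hSab : S = {a, b} := by
      refine code_inj N.inj N.lt ?_
      rw [hcode, code_pair N.inj N.lt, hm]
    have hax : a ≠ x := by rintro rfl; rw [N.fx] at hp; omega
    have hbx : b ≠ x := by rintro rfl; rw [N.fx] at hq; omega
    have hcard : (insert x ({a, b} : Set (Fin 6))).ncard ≤ 3 := by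
      refine (Set.ncard_insert_le _ _).trans ?_
      rw [Set.ncard_pair hab]
    refine ⟨{a, b}, (insert x ({a, b} : Set (Fin 6)))ᶜ, ⟨a, Or.inl rfl⟩, ?_, ?_, ?_, ?_, ?_, ?_, ?_⟩
    · rw [← Set.ncard_pos (Set.toFinite _)]
      have := Set.ncard_add_ncard_compl (insert x ({a, b} : Set (Fin 6)))
      rw [Nat.card_eq_fintype_card, Fintype.card_fin] at this
      omega
    · rw [Set.ncard_pair hab]
    · rw [Set.disjoint_left]
      intro j hj hj2
      exact hj2 (Set.mem_insert_of_mem _ hj)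
    · rintro (h | h)
      · exact hax h.symm
      · exact hbx h.symm
    · intro h
      exact h (Set.mem_insert _ _)
    · intro j
      by_cases hj : j ∈ (insert x ({a, b} : Set (Fin 6)))
      · rcases hj with hj | hj
        · exact Or.inl hj
        · exact Or.inr (Or.inl hj)
      · exact Or.inr (Or.inr hj)
    · intro u hu v hv
      have huv : u ≠ v := by
        rintro rfl
        exact hv (Set.mem_insert_of_mem _ hu)
      have hvx : v ≠ x := fun h => hv (Or.inl h)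
      have hux : u ≠ x := by
        rcases hu with rfl | hu
        · exact hax
        · rw [Set.mem_singleton_iff.1 hu]; exact hbx
      have hmem : code f {u, v} ∈ L2 := by
        refine memL2 N (Set.ncard_pair huv) ?_
        rintro (h | h)
        · exact hux h.symm
        · exact hvx h.symm
      have c4 := List.all_eq_true.1 c3 _ hmem
      have hAc : A = code f {a, b} := by rw [← hSab, hcode]
      rcases key c4 with c4 | c4
      · exfalso
        rw [hAc, code_and N.inj N.lt, Nat.beq_eq, code_zero N.inj N.lt] at c4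
        have : u ∈ ({u, v} : Set (Fin 6)) ∩ {a, b} := ⟨Or.inl rfl, hu⟩
        rw [c4] at this
        exact this
      rcases key c4 with c4 | c4
      · exfalso
        rw [hAc, Nat.beq_eq] at c4
        have h5 := code_inj N.inj N.lt c4
        have h6 : v ∈ ({a, b} : Set (Fin 6)) := h5 ▸ (Or.inr rfl : v ∈ ({u, v} : Set (Fin 6)))
        exact hv (Set.mem_insert_of_mem _ h6)
      · exact has_spec N rfl c4
  · right
    right
    have B1 := bx_rot B
    have B2 := bx_rot B1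
    have p0 := fun hb => blkS_spec (t := t) (h := h) (g := g) N B hb
    have p1 := fun hb => blkS_spec (t := fun k => t (k + 1)) (h := fun k => h (k + 1))
      (g := fun k => g (k + 1)) N B1 hb
    have p2 := fun hb => blkS_spec (t := fun k => t (k + 1 + 1)) (h := fun k => h (k + 1 + 1))
      (g := fun k => g (k + 1 + 1)) N B2 hb
    have r0 : ∀ {k : Fin 6}, (k = 0 ∨ k = 3) ∧ BB x i t h g k → ∃ k, (k = 0 ∨ k = 3) ∧
      BB x i t h g k := fun h => ⟨_, h⟩
    have fin : ∀ k k' : Fin 6, BB x i t h g k → BB x i t h g k' → k' ≠ k → k' ≠ k + 3 →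
        ∃ k k' : Fin 6, k' ≠ k ∧ k' ≠ k + 3 ∧ (BL x i t h g k ∨ BL x i t g h k) ∧
          (BL x i t h g k' ∨ BL x i t g h k') := fun k k' a b c d => ⟨k, k', c, d, a, b⟩
    have three : ∀ {a b c : Bool}, cond a (cond b true c) (cond b c false) = true →
        (a = true ∧ b = true) ∨ (a = true ∧ c = true) ∨ (b = true ∧ c = true) := by decide
    rcases three c3 with ⟨x0, x1⟩ | ⟨x0, x2⟩ | ⟨x1, x2⟩
    · obtain ⟨k, hk, b0⟩ := p0 x0
      obtain ⟨k', hk', b1⟩ := p1 x1
      refine fin k (k' + 1) b0 (bb_shift b1) ?_ ?_ <;>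
        rcases hk with rfl | rfl <;> rcases hk' with rfl | rfl <;> decide
    · obtain ⟨k, hk, b0⟩ := p0 x0
      obtain ⟨k', hk', b2⟩ := p2 x2
      refine fin k (k' + 1 + 1) b0 (bb_shift (bb_shift b2)) ?_ ?_ <;>
        rcases hk with rfl | rfl <;> rcases hk' with rfl | rfl <;> decide
    · obtain ⟨k, hk, b1⟩ := p1 x1
      obtain ⟨k', hk', b2⟩ := p2 x2
      refine fin (k + 1) (k' + 1 + 1) (bb_shift b1) (bb_shift (bb_shift b2)) ?_ ?_ <;>
        rcases hk with rfl | rfl <;> rcases hk' with rfl | rfl <;> decide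

theorem finF : FinF := fun _ _ hxi => ⟨f1 hxi, rt hxi, f2 hxi⟩

end Vale.Agent.P032.Words6.H46
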