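import Vale.Agent.P032.Words6.H358.TreeD
import Vale.Agent.P032.Words.H670.P1
import Vale.Agent.P032.Words.H670.P2
import Vale.Agent.P032.Words.H670.P3
import Vale.Agent.P032.Words.H670.P4
import Vale.Agent.P032.Words.H670.P5
import Vale.Agent.P032.Words.H670.P6
import Vale.Agent.P032.Words.H670.P7
import Vale.Agent.P032.Words.H670.P8

/-!
# P032: the leaves 1 to 8 of the prism
-/

namespace Vale.Agent.P032.Words6.H46

open Vale.Agent.P032.Words.Trie Vale.Agent.P032.Words6.H358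

theorem leaf35_1 : LeafOK [3, 5, 9, 6, 18, 36, 24, 40, 48]
    [(7, 0), (11, 0), (26, 0)] :=
  LeafOK.mk' C35_1.tab (by decide +kernel) (by decide +kernel)

theorem leaf35_2 : LeafOK [3, 5, 9, 6, 18, 36, 24, 40, 48]
    [(7, 0), (11, 0), (26, 1)] :=
  LeafOK.mk' C35_2.tab (by decide +kernel) (by decide +kernel)

theorem leaf35_3 : LeafOK [3, 5, 9, 6, 18, 36, 24, 40, 48]
    [(7, 0), (11, 0), (26, 2)] :=
  LeafOK.mk' C35_3.tab (by decide +kernel) (by decide +kernel)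

theorem leaf35_4 : LeafOK [3, 5, 9, 6, 18, 36, 24, 40, 48]
    [(7, 0), (11, 1), (22, 0)] :=
  LeafOK.mk' C35_4.tab (by decide +kernel) (by decide +kernel)

theorem leaf35_5 : LeafOK [3, 5, 9, 6, 18, 36, 24, 40, 48]
    [(7, 0), (11, 1), (22, 1), (26, 0), (13, 0), (19, 0)] :=
  LeafOK.mk' C35_5.tab (by decide +kernel) (by decide +kernel)

theorem leaf35_6 : LeafOK [3, 5, 9, 6, 18, 36, 24, 40, 48]
    [(7, 0), (11, 1), (22, 1), (26, 0), (13, 0), (19, 1)] :=
  LeafOK.mk' C35_6.tab (by decide +kernel) (by decide +kernel)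

theorem leaf35_7 : LeafOK [3, 5, 9, 6, 18, 36, 24, 40, 48]
    [(7, 0), (11, 1), (22, 1), (26, 0), (13, 0), (19, 2)] :=
  LeafOK.mk' C35_7.tab (by decide +kernel) (by decide +kernel)

theorem leaf35_8 : LeafOK [3, 5, 9, 6, 18, 36, 24, 40, 48]
    [(7, 0), (11, 1), (22, 1), (26, 0), (13, 1), (25, 0)] :=
  LeafOK.mk' C35_8.tab (by decide +kernel) (by decide +kernel)


end Vale.Agent.P032.Words6.H46
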