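import Vale.Agent.P032.Words6.H358.TreeD
import Vale.Agent.P032.Words.H670.P9
import Vale.Agent.P032.Words.H670.P10
import Vale.Agent.P032.Words.H670.P11
import Vale.Agent.P032.Words.H670.P12
import Vale.Agent.P032.Words.H670.P13
import Vale.Agent.P032.Words.H670.P14
import Vale.Agent.P032.Words.H670.P15
import Vale.Agent.P032.Words.H670.P16

/-!
# P032: the leaves 9 to 16 of the prism
-/

namespace Vale.Agent.P032.Words6.H46

open Vale.Agent.P032.Words.Trie Vale.Agent.P032.Words6.H358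

theorem leaf35_9 : LeafOK [3, 5, 9, 6, 18, 36, 24, 40, 48]
    [(7, 0), (11, 1), (22, 1), (26, 0), (13, 1), (25, 1)] :=
  LeafOK.mk' C35_9.tab (by decide +kernel) (by decide +kernel)

theorem leaf35_10 : LeafOK [3, 5, 9, 6, 18, 36, 24, 40, 48]
    [(7, 0), (11, 1), (22, 1), (26, 0), (13, 1), (25, 2)] :=
  LeafOK.mk' C35_10.tab (by decide +kernel) (by decide +kernel)

theorem leaf35_11 : LeafOK [3, 5, 9, 6, 18, 36, 24, 40, 48]
    [(7, 0), (11, 1), (22, 1), (26, 0), (13, 2)] :=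
  LeafOK.mk' C35_11.tab (by decide +kernel) (by decide +kernel)

theorem leaf35_12 : LeafOK [3, 5, 9, 6, 18, 36, 24, 40, 48]
    [(7, 0), (11, 1), (22, 1), (26, 1)] :=
  LeafOK.mk' C35_12.tab (by decide +kernel) (by decide +kernel)

theorem leaf35_13 : LeafOK [3, 5, 9, 6, 18, 36, 24, 40, 48]
    [(7, 0), (11, 1), (22, 1), (26, 2)] :=
  LeafOK.mk' C35_13.tab (by decide +kernel) (by decide +kernel)

theorem leaf35_14 : LeafOK [3, 5, 9, 6, 18, 36, 24, 40, 48]
    [(7, 0), (11, 1), (22, 2)] :=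
  LeafOK.mk' C35_14.tab (by decide +kernel) (by decide +kernel)

theorem leaf35_15 : LeafOK [3, 5, 9, 6, 18, 36, 24, 40, 48]
    [(7, 0), (11, 2)] :=
  LeafOK.mk' C35_15.tab (by decide +kernel) (by decide +kernel)

theorem leaf35_16 : LeafOK [3, 5, 9, 6, 18, 36, 24, 40, 48]
    [(7, 1), (11, 0), (26, 0)] :=
  LeafOK.mk' C35_16.tab (by decide +kernel) (by decide +kernel)


end Vale.Agent.P032.Words6.H46
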