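import Vale.Agent.P032.Words6.H358.TreeD
import Vale.Agent.P032.Words.H670.P17
import Vale.Agent.P032.Words.H670.P18
import Vale.Agent.P032.Words.H670.P19
import Vale.Agent.P032.Words.H670.P20
import Vale.Agent.P032.Words.H670.P21
import Vale.Agent.P032.Words.H670.P22
import Vale.Agent.P032.Words.H670.P23
import Vale.Agent.P032.Words.H670.P24

/-!
# P032: the leaves 17 to 24 of the prism
-/

namespace Vale.Agent.P032.Words6.H46

open Vale.Agent.P032.Words.Trie Vale.Agent.P032.Words6.H358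

theorem leaf35_17 : LeafOK [3, 5, 9, 6, 18, 36, 24, 40, 48]
    [(7, 1), (11, 0), (26, 1), (22, 0), (13, 0), (19, 0)] :=
  LeafOK.mk' C35_17.tab (by decide +kernel) (by decide +kernel)

theorem leaf35_18 : LeafOK [3, 5, 9, 6, 18, 36, 24, 40, 48]
    [(7, 1), (11, 0), (26, 1), (22, 0), (13, 0), (19, 1)] :=
  LeafOK.mk' C35_18.tab (by decide +kernel) (by decide +kernel)

theorem leaf35_19 : LeafOK [3, 5, 9, 6, 18, 36, 24, 40, 48]
    [(7, 1), (11, 0), (26, 1), (22, 0), (13, 0), (19, 2)] :=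
  LeafOK.mk' C35_19.tab (by decide +kernel) (by decide +kernel)

theorem leaf35_20 : LeafOK [3, 5, 9, 6, 18, 36, 24, 40, 48]
    [(7, 1), (11, 0), (26, 1), (22, 0), (13, 1), (25, 0)] :=
  LeafOK.mk' C35_20.tab (by decide +kernel) (by decide +kernel)

theorem leaf35_21 : LeafOK [3, 5, 9, 6, 18, 36, 24, 40, 48]
    [(7, 1), (11, 0), (26, 1), (22, 0), (13, 1), (25, 1)] :=
  LeafOK.mk' C35_21.tab (by decide +kernel) (by decide +kernel)

theorem leaf35_22 : LeafOK [3, 5, 9, 6, 18, 36, 24, 40, 48]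
    [(7, 1), (11, 0), (26, 1), (22, 0), (13, 1), (25, 2)] :=
  LeafOK.mk' C35_22.tab (by decide +kernel) (by decide +kernel)

theorem leaf35_23 : LeafOK [3, 5, 9, 6, 18, 36, 24, 40, 48]
    [(7, 1), (11, 0), (26, 1), (22, 0), (13, 2)] :=
  LeafOK.mk' C35_23.tab (by decide +kernel) (by decide +kernel)

theorem leaf35_24 : LeafOK [3, 5, 9, 6, 18, 36, 24, 40, 48]
    [(7, 1), (11, 0), (26, 1), (22, 1)] :=
  LeafOK.mk' C35_24.tab (by decide +kernel) (by decide +kernel)


end Vale.Agent.P032.Words6.H46
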