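import Vale.Agent.P032.Words6.H358.TreeD
import Vale.Agent.P032.Words.H670.P25
import Vale.Agent.P032.Words.H670.P26
import Vale.Agent.P032.Words.H670.P27
import Vale.Agent.P032.Words.H670.P28
import Vale.Agent.P032.Words.H670.P29
import Vale.Agent.P032.Words.H670.P30
import Vale.Agent.P032.Words.H670.P31
import Vale.Agent.P032.Words.H670.P32
import Vale.Agent.P032.Words.H670.P33

/-!
# P032: the leaves 25 to 33 of the prism
-/

namespace Vale.Agent.P032.Words6.H46

open Vale.Agent.P032.Words.Trie Vale.Agent.P032.Words6.H358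

theorem leaf35_25 : LeafOK [3, 5, 9, 6, 18, 36, 24, 40, 48]
    [(7, 1), (11, 0), (26, 1), (22, 2)] :=
  LeafOK.mk' C35_25.tab (by decide +kernel) (by decide +kernel)

theorem leaf35_26 : LeafOK [3, 5, 9, 6, 18, 36, 24, 40, 48]
    [(7, 1), (11, 0), (26, 2)] :=
  LeafOK.mk' C35_26.tab (by decide +kernel) (by decide +kernel)

theorem leaf35_27 : LeafOK [3, 5, 9, 6, 18, 36, 24, 40, 48]
    [(7, 1), (11, 1), (22, 0)] :=
  LeafOK.mk' C35_27.tab (by decide +kernel) (by decide +kernel)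

theorem leaf35_28 : LeafOK [3, 5, 9, 6, 18, 36, 24, 40, 48]
    [(7, 1), (11, 1), (22, 1)] :=
  LeafOK.mk' C35_28.tab (by decide +kernel) (by decide +kernel)

theorem leaf35_29 : LeafOK [3, 5, 9, 6, 18, 36, 24, 40, 48]
    [(7, 1), (11, 1), (22, 2)] :=
  LeafOK.mk' C35_29.tab (by decide +kernel) (by decide +kernel)

theorem leaf35_30 : LeafOK [3, 5, 9, 6, 18, 36, 24, 40, 48]
    [(7, 1), (11, 2)] :=
  LeafOK.mk' C35_30.tab (by decide +kernel) (by decide +kernel)

theorem leaf35_31 : LeafOK [3, 5, 9, 6, 18, 36, 24, 40, 48]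
    [(7, 2), (11, 0)] :=
  LeafOK.mk' C35_31.tab (by decide +kernel) (by decide +kernel)

theorem leaf35_32 : LeafOK [3, 5, 9, 6, 18, 36, 24, 40, 48]
    [(7, 2), (11, 1)] :=
  LeafOK.mk' C35_32.tab (by decide +kernel) (by decide +kernel)

theorem leaf35_33 : LeafOK [3, 5, 9, 6, 18, 36, 24, 40, 48]
    [(7, 2), (11, 2)] :=
  LeafOK.mk' C35_33.tab (by decide +kernel) (by decide +kernel)


end Vale.Agent.P032.Words6.H46
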