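import Vale.Agent.P032.S5.H46.G33
import Vale.Agent.P032.S5.H767.Five
import Vale.Agent.P032.Words6.H704.Gen6

/-!
# P032: static palette rules on the circle of a six-coloured centre, at every time

`T_u = T (pt z u)`.  At every `u`: `2 ≤ |T_u|`; neighbours `T_u`, `T_(u+1)` have at most one common
colour and none if one of them is a pair; a pair and an antipodal triple meet (all colours occur on
the circle); two antipodal triples with one common colour `s` obey `G33`.
-/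

open Set Filter Topology Metric

noncomputable section

namespace Vale.Agent.P032.Words6.H46

open Vale.Agent.P032.Six Vale.Agent.P032.S5.H767 Vale.Agent.P032.Words6.H704
  Vale.Agent.P032.S5.H46

variable {U : Fin 6 → Set ℂ} {T : ℂ → Set (Fin 6)} {z : ℂ}

theorem two_le (C : Six6 U T z) (u : ℝ) : 2 ≤ (T (pt z u)).ncard := C.two_le (dist_pt z u)

theorem le_three (C : Six6 U T z) (u : ℝ) : (T (pt z u)).ncard ≤ 3 := C.clean _ (dist_pt z u)

theorem ncard_six (C : Six6 U T z) : (T z).ncard = 6 := by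
  have : T z = univ := Set.eq_univ_of_forall C.all
  rw [this, Set.ncard_univ, Nat.card_eq_fintype_card, Fintype.card_fin]

/-- a pair shares no colour with the palette of another point of the circle at distance one -/
theorem disj_pair (C : Six6 U T z) {q w : ℂ} (hq : dist q z = 1) (hw : dist w z = 1)
    (hqw : dist q w = 1) (h2 : (T q).ncard = 2) : Disjoint (T q) (T w) := by
  rw [Set.disjoint_left]
  intro i h1 h3
  have h4 : ∀ᶠ p in 𝓝[sphere z 1] q, i ∈ Pal U p := by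
    filter_upwards [C.irr.pair_open h2 (fun j _ => C.all j) subset_rfl] with p hp
    exact C.irr.sub p (by rw [hp]; exact h1)
  rcases C.irr.mx.partner_line hq h4 hqw (C.irr.sub _ h3) with h5 | h5
  · rw [h5, dist_self] at hw
    exact zero_ne_one hw
  · have h6 : w - z = 2 * (q - z) := by linear_combination h5
    have h7 : dist w z = 2 := by
      rw [dist_eq_norm, h6, norm_mul, ← dist_eq_norm, hq]; simp
    linarith

/-- **Neighbours, I.** -/
theorem nb_pair (C : Six6 U T z) (u : ℝ)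
    (h : (T (pt z u)).ncard = 2 ∨ (T (pt z (u + 1))).ncard = 2) :
    Disjoint (T (pt z u)) (T (pt z (u + 1))) := by
  rcases h with h | h
  · exact disj_pair C (dist_pt _ _) (dist_pt _ _) (dist_pt_one z u) h
  · exact (disj_pair C (dist_pt _ _) (dist_pt _ _) (by rw [dist_comm]; exact dist_pt_one z u)
      h).symm

/-- **Neighbours, II.** -/
theorem nb_one (C : Six6 U T z) (u : ℝ) : (T (pt z u) ∩ T (pt z (u + 1))).ncard ≤ 1 := by
  rw [Set.ncard_le_one (Set.toFinite _)]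
  intro s hs t ht
  exact common_le_one C.irr (by rw [ncard_six C]; omega) (dist_pt z u) (dist_pt z (u + 1))
    (dist_pt_one z u) (le_three C u) (le_three C (u + 1)) hs.1 hs.2 ht.1 ht.2

/-- two disjoint sets, three and two elements: the sixth colour -/
theorem exists_sixth {A B : Set (Fin 6)} (hA : A.ncard = 3) (hB : B.ncard = 2)
    (hd : Disjoint A B) : ∃ x, x ∉ A ∧ x ∉ B ∧ ∀ i, i ∈ A ∨ i ∈ B ∨ i = x := by
  have hcard : (A ∪ B).ncard = 5 := by
    rw [Set.ncard_union_eq hd (Set.toFinite _) (Set.toFinite _), hA, hB]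
  obtain ⟨x, hx⟩ : ∃ x, (A ∪ B)ᶜ = {x} := by
    rw [← Set.ncard_eq_one, Set.ncard_compl _ (Set.toFinite _), hcard, Nat.card_eq_fintype_card,
      Fintype.card_fin]
  have hxm : x ∈ (A ∪ B)ᶜ := hx.symm ▸ mem_singleton x
  refine ⟨x, fun h => hxm (Or.inl h), fun h => hxm (Or.inr h), fun i => ?_⟩
  by_cases h1 : i ∈ A
  · exact Or.inl h1
  by_cases h2 : i ∈ B
  · exact Or.inr (Or.inl h2)
  · right; right
    have : i ∈ (A ∪ B)ᶜ := fun h4 => h4.elim h1 h2
    rw [hx] at this; exact this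

/-- **GAP3.** -/
theorem gap3 (C : Six6 U T z) (hact : ∀ i, ∃ q, dist q z = 1 ∧ i ∈ T q) {y : ℂ}
    (hy : dist y z = 1) (h3 : (T y).ncard = 3) (h2 : (T (2 * z - y)).ncard = 2) :
    (T y ∩ T (2 * z - y)).Nonempty := by
  rw [← Set.not_disjoint_iff_nonempty_inter]
  intro hd
  obtain ⟨x, hx1, hx2, hK⟩ := exists_sixth h3 h2 hd
  obtain ⟨w, hw, hxw⟩ := hact x
  refine C.irr.gap3 (y := y) (v := w) (x := x) (Q := T (2 * z - y)) hy (by omega)
    (fun i _ => hK i) ?_ hw (C.irr.sub w hxw) (fun h1 => hx1 (h1 ▸ hxw)) (fun h1 => hx2 ?_)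
  · exact (C.irr.pair_open h2 (fun j _ => C.all j) subset_rfl).mono fun q hq => by
      rw [← hq]; exact C.irr.sub q
  · have h4 : w = 2 * z - y := by linear_combination h1
    rw [← h4]; exact hxw

/-- **GAP3**, both forms, in angles. -/
theorem gap3_pt (C : Six6 U T z) (hact : ∀ i, ∃ q, dist q z = 1 ∧ i ∈ T q) (u : ℝ)
    (h : ((T (pt z u)).ncard = 3 ∧ (T (pt z (u + 3))).ncard = 2) ∨
      ((T (pt z u)).ncard = 2 ∧ (T (pt z (u + 3))).ncard = 3)) :
    (T (pt z u) ∩ T (pt z (u + 3))).Nonempty := by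
  have e1 : pt z (u + 3) = 2 * z - pt z u := pt_three z u
  rcases h with ⟨h3, h2⟩ | ⟨h2, h3⟩
  · rw [e1] at h2 ⊢
    exact gap3 C hact (dist_pt z u) h3 h2
  · have e2 : pt z u = 2 * z - pt z (u + 3) := by rw [e1]; ring
    have := gap3 C hact (dist_pt z (u + 3)) h3 (by rw [← e2]; exact h2)
    rw [← e2, Set.inter_comm] at this
    exact this

theorem pt_add3 (z : ℂ) (u : ℝ) (k : Fin 6) :
    pt z (u + ((k + 3).val : ℝ)) = pt z (u + (k.val : ℝ) + 3) := by
  have h6 : pt z (u + (k.val : ℝ) + 3) = pt z (u + (k.val : ℝ) - 3) := by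
    rw [← pt_six z (u + (k.val : ℝ) - 3)]
    congr 1; ring
  fin_cases k
  · show pt z (u + ((3 : ℕ) : ℝ)) = pt z (u + ((0 : ℕ) : ℝ) + 3)
    congr 1; push_cast; ring
  · show pt z (u + ((4 : ℕ) : ℝ)) = pt z (u + ((1 : ℕ) : ℝ) + 3)
    congr 1; push_cast; ring
  · show pt z (u + ((5 : ℕ) : ℝ)) = pt z (u + ((2 : ℕ) : ℝ) + 3)
    congr 1; push_cast; ring
  · rw [h6]
    show pt z (u + ((0 : ℕ) : ℝ)) = pt z (u + ((3 : ℕ) : ℝ) - 3)
    congr 1; push_cast; ring
  · rw [h6]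
    show pt z (u + ((1 : ℕ) : ℝ)) = pt z (u + ((4 : ℕ) : ℝ) - 3)
    congr 1; push_cast; ring
  · rw [h6]
    show pt z (u + ((2 : ℕ) : ℝ)) = pt z (u + ((5 : ℕ) : ℝ) - 3)
    congr 1; push_cast; ring

/-- **GAP3** for the six palettes at the time `u`. -/
theorem gap3_fin (C : Six6 U T z) (hact : ∀ i, ∃ q, dist q z = 1 ∧ i ∈ T q) (u : ℝ) (k : Fin 6)
    (h : ((T (pt z (u + (k.val : ℝ)))).ncard = 3 ∧
        (T (pt z (u + ((k + 3).val : ℝ)))).ncard = 2) ∨
      ((T (pt z (u + (k.val : ℝ)))).ncard = 2 ∧ (T (pt z (u + ((k + 3).val : ℝ)))).ncard = 3)) :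
    (T (pt z (u + (k.val : ℝ))) ∩ T (pt z (u + ((k + 3).val : ℝ)))).Nonempty := by
  rw [pt_add3] at h ⊢
  exact gap3_pt C hact _ h

/-- **G33** for the six palettes at the time `u`. -/
theorem g33_fin (C : Six6 U T z) (hact : ∀ i, ∃ q, dist q z = 1 ∧ i ∈ T q) (u : ℝ) (k : Fin 6)
    {s : Fin 6} (hs : T (pt z (u + (k.val : ℝ))) ∩ T (pt z (u + ((k + 3).val : ℝ))) = {s})
    (h3 : (T (pt z (u + (k.val : ℝ)))).ncard = 3)
    (h3' : (T (pt z (u + ((k + 3).val : ℝ)))).ncard = 3) :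
    ∀ᶠ v in 𝓝 u, ¬ (T (pt z (v + (k.val : ℝ))) = T (pt z (u + (k.val : ℝ))) \ {s} ∧
      T (pt z (v + ((k + 3).val : ℝ))) = T (pt z (u + ((k + 3).val : ℝ))) \ {s}) := by
  rw [pt_add3] at hs h3' ⊢
  have h1 := g33 C.irr (ncard_six C) hact (u := u + (k.val : ℝ)) hs h3 h3'
  have hc : Tendsto (fun t : ℝ => t + (k.val : ℝ)) (𝓝 u) (𝓝 (u + (k.val : ℝ))) :=
    (continuous_id.add continuous_const).tendsto u
  filter_upwards [hc.eventually h1] with v hv
  rw [pt_add3]
  exact hv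

end Vale.Agent.P032.Words6.H46
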