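import Vale.Agent.P032.Words6.H46.Rules
import Vale.Agent.P032.Words6.H503.Tie

/-!
# P032: the accumulating selections on the circle of a six-coloured centre

`H v h`: at the generic time `v` the word `h` of pairs is selected, `h k ⊆ T (pt z (v + k))`.
`Acc H u h`: `h` is selected at times accumulating at `u`; `Lam H u k`: the union of the `h k`.
The palettes `Lam H u` obey the static rules: two or three colours, neighbours disjoint if one is a
pair, at most one common colour, a pair and an antipodal triple meet, `G33`.  Exact triple arcs and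
triples with three accumulating pairs are allowed.
-/

open Set Filter Topology Metric

noncomputable section

namespace Vale.Agent.P032.Words6.H46

open Vale.Agent.P032.Six Vale.Agent.P032.S5.H767 Vale.Agent.P032.Words6.H704
  Vale.Agent.P032.S5.H46 Vale.Agent.P032.Words6.H503

variable {U : Fin 6 → Set ℂ} {T : ℂ → Set (Fin 6)} {z : ℂ}

/-- a family of selections of pairs at generic times -/
structure SelH (T : ℂ → Set (Fin 6)) (z : ℂ) (H : ℝ → (Fin 6 → Set (Fin 6)) → Prop) : Prop where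
  gn : ∀ v h, H v h → Gn T z v
  le : ∀ v h, H v h → ∀ k : Fin 6, h k ⊆ T (pt z (v + (k.val : ℝ)))
  two : ∀ v h, H v h → ∀ k : Fin 6, (h k).ncard = 2
  dense : ∀ u, ∃ᶠ v in 𝓝 u, ∃ h, H v h

/-- the accumulating selections -/
def Acc (H : ℝ → (Fin 6 → Set (Fin 6)) → Prop) (u : ℝ) (h : Fin 6 → Set (Fin 6)) : Prop :=
  ∃ᶠ v in 𝓝 u, H v h

/-- the union of the accumulating letters -/
def Lam (H : ℝ → (Fin 6 → Set (Fin 6)) → Prop) (u : ℝ) (k : Fin 6) : Set (Fin 6) :=
  {i | ∃ h, Acc H u h ∧ i ∈ h k}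

variable {H : ℝ → (Fin 6 → Set (Fin 6)) → Prop}

theorem acc_near (H : ℝ → (Fin 6 → Set (Fin 6)) → Prop) (u : ℝ) :
    ∀ᶠ v in 𝓝 u, ∀ h, H v h → Acc H u h := by
  rw [eventually_all]
  intro h
  by_cases hu : Acc H u h
  · exact Eventually.of_forall fun t _ => hu
  · exact (not_frequently.1 hu).mono fun t ht hth => absurd hth ht

/-- also the accumulating selections are upper semicontinuous -/
theorem acc_near' (H : ℝ → (Fin 6 → Set (Fin 6)) → Prop) (u : ℝ) :
    ∀ᶠ v in 𝓝 u, ∀ h, Acc H v h → Acc H u h := by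
  have h1 := (acc_near H u).eventually_nhds
  filter_upwards [h1] with v hv h hh
  obtain ⟨w, hw, hw2⟩ := (hh.and_eventually hv).exists
  exact hw2 h hw

theorem SelH.exists_acc (S : SelH T z H) (u : ℝ) : ∃ h, Acc H u h := by
  obtain ⟨v, ⟨h, hv⟩, hv2⟩ := ((S.dense u).and_eventually (acc_near H u)).exists
  exact ⟨h, hv2 h hv⟩

theorem tendsto_add (u a : ℝ) : Tendsto (fun t : ℝ => t + a) (𝓝 u) (𝓝 (u + a)) :=
  (continuous_id.add continuous_const).tendsto u

/-- a colour frequently present near `u` is present at `u` -/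
theorem mem_of_freq (C : Six6 U T z) {u : ℝ} {k : Fin 6} {i : Fin 6}
    (h : ∃ᶠ v in 𝓝 u, i ∈ T (pt z (v + (k.val : ℝ)))) : i ∈ T (pt z (u + (k.val : ℝ))) := by
  have hcl : IsClosed {v : ℝ | i ∈ T (pt z (v + (k.val : ℝ)))} :=
    (C.irr.closed i).preimage ((continuous_pt z).comp (continuous_id.add continuous_const))
  have h1 : u ∈ closure {v : ℝ | i ∈ T (pt z (v + (k.val : ℝ)))} :=
    mem_closure_iff_frequently.2 h
  rw [hcl.closure_eq] at h1
  exact h1

theorem SelH.acc_le (C : Six6 U T z) (S : SelH T z H) {u : ℝ} {h : Fin 6 → Set (Fin 6)}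
    (hh : Acc H u h) (k : Fin 6) : h k ⊆ T (pt z (u + (k.val : ℝ))) := fun _ hi =>
  mem_of_freq C (hh.mono fun v hv => S.le v h hv k hi)

theorem SelH.acc_two (S : SelH T z H) {u : ℝ} {h : Fin 6 → Set (Fin 6)}
    (hh : Acc H u h) (k : Fin 6) : (h k).ncard = 2 := by
  obtain ⟨v, hv⟩ := hh.exists
  exact S.two v h hv k

theorem SelH.lam_sub (C : Six6 U T z) (S : SelH T z H) (u : ℝ) (k : Fin 6) :
    Lam H u k ⊆ T (pt z (u + (k.val : ℝ))) := by
  rintro i ⟨h, hh, hi⟩
  exact S.acc_le C hh k hi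

theorem acc_sub_lam {u : ℝ} {h : Fin 6 → Set (Fin 6)} (hh : Acc H u h) (k : Fin 6) :
    h k ⊆ Lam H u k := fun _ hi => ⟨h, hh, hi⟩

theorem SelH.lam_two_le (S : SelH T z H) (u : ℝ) (k : Fin 6) : 2 ≤ (Lam H u k).ncard := by
  obtain ⟨h, hh⟩ := S.exists_acc u
  rw [← S.acc_two hh k]
  exact Set.ncard_le_ncard (acc_sub_lam hh k) (Set.toFinite _)

theorem SelH.lam_le_three (C : Six6 U T z) (S : SelH T z H) (u : ℝ) (k : Fin 6) :
    (Lam H u k).ncard ≤ 3 :=
  (Set.ncard_le_ncard (S.lam_sub C u k) (Set.toFinite _)).trans (C.clean _ (dist_pt _ _))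

theorem SelH.lam_card (C : Six6 U T z) (S : SelH T z H) (u : ℝ) (k : Fin 6) :
    (Lam H u k).ncard = 2 ∨ (Lam H u k).ncard = 3 := by
  have h1 := S.lam_two_le u k
  have h2 := S.lam_le_three C u k
  omega

theorem SelH.lam_eq (C : Six6 U T z) (S : SelH T z H) {u : ℝ} {k : Fin 6}
    (h3 : (Lam H u k).ncard = 3) : Lam H u k = T (pt z (u + (k.val : ℝ))) :=
  Set.eq_of_subset_of_ncard_le (S.lam_sub C u k) (by
    have := C.clean _ (dist_pt z (u + (k.val : ℝ)))
    omega) (Set.toFinite _)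

/-- if `Lam` is a pair, it is the only accumulating letter -/
theorem SelH.acc_eq (S : SelH T z H) {u : ℝ} {k : Fin 6} (h2 : (Lam H u k).ncard = 2)
    {h : Fin 6 → Set (Fin 6)} (hh : Acc H u h) : h k = Lam H u k :=
  Set.eq_of_subset_of_ncard_le (acc_sub_lam hh k) (by rw [h2, S.acc_two hh k]) (Set.toFinite _)

/-- **A pair `Lam` is contained in all palettes nearby.** -/
theorem SelH.lam_pair (C : Six6 U T z) (S : SelH T z H) {u : ℝ} {k : Fin 6}
    (h2 : (Lam H u k).ncard = 2) :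
    ∀ᶠ v in 𝓝 u, Lam H u k ⊆ T (pt z (v + (k.val : ℝ))) := by
  filter_upwards [(acc_near H u).eventually_nhds] with v hv i hi
  refine mem_of_freq C (((S.dense v).and_eventually hv).mono ?_)
  rintro w ⟨⟨h, hw⟩, hw2⟩
  have h3 : h k = Lam H u k := S.acc_eq h2 (hw2 h hw)
  exact S.le w h hw k (by rw [h3]; exact hi)

theorem SelH.lam_pal (C : Six6 U T z) (S : SelH T z H) {u : ℝ} {k : Fin 6}
    (h2 : (Lam H u k).ncard = 2) :
    ∀ᶠ q in 𝓝[sphere z 1] (pt z (u + (k.val : ℝ))), Lam H u k ⊆ Pal U q := by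
  have h1 : ∀ᶠ v in 𝓝 (u + (k.val : ℝ)), Lam H u k ⊆ T (pt z v) := by
    have hc : Tendsto (fun t : ℝ => t - (k.val : ℝ)) (𝓝 (u + (k.val : ℝ))) (𝓝 u) := by
      have : Continuous fun t : ℝ => t - (k.val : ℝ) := by fun_prop
      have h3 := this.tendsto (u + (k.val : ℝ))
      rwa [add_sub_cancel_right] at h3
    filter_upwards [hc.eventually (S.lam_pair C h2)] with v hv
    rwa [sub_add_cancel] at hv
  exact (ev_circle z (p := fun q => Lam H u k ⊆ T q) h1).mono fun q hq => hq.trans (C.irr.sub q)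

/-- **Neighbours, pair.** -/
theorem SelH.lam_disj (C : Six6 U T z) (S : SelH T z H) {u : ℝ} {k : Fin 6}
    (h2 : (Lam H u k).ncard = 2) {w : ℂ} (hw : dist w z = 1)
    (hkw : dist (pt z (u + (k.val : ℝ))) w = 1) : Disjoint (Lam H u k) (T w) := by
  rw [Set.disjoint_left]
  intro i h1 h3
  rcases C.irr.mx.partner_line (dist_pt z (u + (k.val : ℝ)))
    ((S.lam_pal C h2).mono fun q hq => hq h1) hkw (C.irr.sub _ h3) with h5 | h5
  · rw [h5, dist_self] at hw
    exact zero_ne_one hw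
  · have h6 : w - z = 2 * (pt z (u + (k.val : ℝ)) - z) := by linear_combination h5
    have h7 : dist w z = 2 := by
      rw [dist_eq_norm, h6, norm_mul, ← dist_eq_norm, dist_pt]; simp
    linarith

theorem dist_next (z : ℂ) (u : ℝ) (k : Fin 6) :
    dist (pt z (u + (k.val : ℝ))) (pt z (u + ((k + 1).val : ℝ))) = 1 := by
  rw [pt_fin]; exact dist_pt_one z _

/-- **Neighbours.** -/
theorem SelH.lam_nb (C : Six6 U T z) (S : SelH T z H) (u : ℝ) (k : Fin 6)
    (h : (Lam H u k).ncard = 2 ∨ (Lam H u (k + 1)).ncard = 2) :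
    Disjoint (Lam H u k) (Lam H u (k + 1)) := by
  rcases h with h | h
  · exact (S.lam_disj C h (dist_pt z _) (dist_next z u k)).mono_right (S.lam_sub C u (k + 1))
  · exact ((S.lam_disj C h (dist_pt z _) (by rw [dist_comm]; exact dist_next z u k)).mono_right
      (S.lam_sub C u k)).symm

theorem SelH.lam_nb1 (C : Six6 U T z) (S : SelH T z H) (u : ℝ) (k : Fin 6) :
    (Lam H u k ∩ Lam H u (k + 1)).ncard ≤ 1 := by
  have h1 := nb_one C (u + (k.val : ℝ))
  have h2 : Lam H u (k + 1) ⊆ T (pt z (u + (k.val : ℝ) + 1)) := by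
    rw [← pt_fin]; exact S.lam_sub C u (k + 1)
  exact (Set.ncard_le_ncard (Set.inter_subset_inter (S.lam_sub C u k) h2) (Set.toFinite _)).trans h1

/-- a colour of a pair palette has a partner off two given points -/
theorem act_off (C : Six6 U T z) {x : Fin 6}
    (hx : ∃ q, dist q z = 1 ∧ x ∈ T q ∧ (T q).ncard = 2) (p1 p2 : ℂ) :
    ∃ w, dist w z = 1 ∧ x ∈ T w ∧ w ≠ p1 ∧ w ≠ p2 := by
  obtain ⟨q, hq, hxq, hq2⟩ := hx
  obtain ⟨θ, hθ⟩ := exists_cis (u := q - z) (by rw [← dist_eq_norm]; exact hq)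
  have hpt : pt z (θ / (Real.pi / 3)) = q := by
    unfold pt
    rw [div_mul_cancel₀ _ (by positivity), ← hθ]; ring
  set b := θ / (Real.pi / 3) with hb
  have key : ∀ p : ℂ, ∀ᶠ t : ℝ in 𝓝[>] b, pt z t ≠ p := by
    intro p
    by_cases hp : pt z b = p
    · filter_upwards [Ioo_mem_nhdsGT (show b < b + 6 by linarith)] with t ht hcon
      obtain ⟨n, hn⟩ := pt_eq_int (hp.trans hcon.symm)
      have h1 : (0 : ℝ) < n := by
        have := ht.1
        rw [hn] at this
        linarith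
      have h2 : (n : ℝ) < 1 := by
        have := ht.2
        rw [hn] at this
        linarith
      have h3 : (0 : ℤ) < n := by exact_mod_cast h1
      have h4 : n < (1 : ℤ) := by exact_mod_cast h2
      omega
    · exact nhdsWithin_le_nhds (((continuous_pt z).tendsto b).eventually
        (isOpen_compl_singleton.mem_nhds hp))
  have h1 : ∀ᶠ t in 𝓝 b, T (pt z t) = T q := by
    have := C.irr.pair_open hq2 (fun j _ => C.all j) (y := pt z b) (by rw [hpt])
    exact (tendsto_pt z b).eventually this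
  obtain ⟨t, ht1, ht2, ht3⟩ := ((key p1).and ((key p2).and (nhdsWithin_le_nhds h1))).exists
  exact ⟨pt z t, dist_pt z t, by rw [ht3]; exact hxq, ht1, ht2⟩

/-- **GAP3.** -/
theorem SelH.lam_gap3 (C : Six6 U T z) (S : SelH T z H)
    (hact : ∀ i, ∃ q, dist q z = 1 ∧ i ∈ T q ∧ (T q).ncard = 2) (u : ℝ) (k : Fin 6)
    (h3 : (Lam H u k).ncard = 3) (h2 : (Lam H u (k + 3)).ncard = 2) :
    (Lam H u k ∩ Lam H u (k + 3)).Nonempty := by
  rw [← Set.not_disjoint_iff_nonempty_inter]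
  intro hd
  obtain ⟨x, -, -, hK⟩ := exists_sixth h3 h2 hd
  set y := pt z (u + (k.val : ℝ)) with hy
  have hyz : dist y z = 1 := dist_pt _ _
  have e1 : 2 * z - y = pt z (u + ((k + 3).val : ℝ)) := (pt_fin3 z u k).symm
  have hTy : T y = Lam H u k := (S.lam_eq C h3).symm
  obtain ⟨w, hw, hxw, hw1, hw2⟩ := act_off C (hact x) y (2 * z - y)
  refine C.irr.gap3 (y := y) (v := w) (x := x) (Q := Lam H u (k + 3)) hyz
    (by rw [hTy]; omega) (fun i _ => by rw [hTy]; exact hK i) ?_ hw (C.irr.sub w hxw) hw1 ?_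
  · rw [e1]; exact S.lam_pal C h2
  · intro h1
    apply hw2
    linear_combination h1

/-- **GAP3**, mirror. -/
theorem SelH.lam_gap3' (C : Six6 U T z) (S : SelH T z H)
    (hact : ∀ i, ∃ q, dist q z = 1 ∧ i ∈ T q ∧ (T q).ncard = 2) (u : ℝ) (k : Fin 6)
    (h2 : (Lam H u k).ncard = 2) (h3 : (Lam H u (k + 3)).ncard = 3) :
    (Lam H u k ∩ Lam H u (k + 3)).Nonempty := by
  have e : k + 3 + 3 = k := by
    rw [add_assoc]
    have : (3 : Fin 6) + 3 = 0 := rfl
    rw [this, add_zero]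
  have := S.lam_gap3 C hact u (k + 3) h3 (by rw [e]; exact h2)
  rw [e, Set.inter_comm] at this
  exact this

/-- **G33.** -/
theorem SelH.lam_g33 (C : Six6 U T z) (S : SelH T z H)
    (hact : ∀ i, ∃ q, dist q z = 1 ∧ i ∈ T q ∧ (T q).ncard = 2) (u : ℝ) (k : Fin 6)
    (h3 : (Lam H u k).ncard = 3) (h3' : (Lam H u (k + 3)).ncard = 3) {s : Fin 6}
    (hs : Lam H u k ∩ Lam H u (k + 3) = {s}) {h : Fin 6 → Set (Fin 6)} (hh : Acc H u h) :
    ¬ (h k = Lam H u k \ {s} ∧ h (k + 3) = Lam H u (k + 3) \ {s}) := by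
  rintro ⟨e1, e2⟩
  have hact' : ∀ i, ∃ q, dist q z = 1 ∧ i ∈ T q := fun i => by
    obtain ⟨q, h1, h2, -⟩ := hact i
    exact ⟨q, h1, h2⟩
  have t1 := S.lam_eq C h3
  have t2 := S.lam_eq C h3'
  have hn : ∀ j : Fin 6, ∀ᶠ v in 𝓝 u, T (pt z (v + (j.val : ℝ))) ⊆ T (pt z (u + (j.val : ℝ))) :=
    fun j => (((continuous_pt z).comp (continuous_id.add continuous_const)).tendsto u).eventually
      (C.irr.nhd _)
  have hg := g33_fin C hact' u k (s := s) (by rw [← t1, ← t2]; exact hs) (by rw [← t1]; exact h3)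
    (by rw [← t2]; exact h3')
  obtain ⟨v, hv, hv1, hv2, hv3⟩ := (hh.and_eventually ((hn k).and ((hn (k + 3)).and hg))).exists
  rw [← t1, ← t2] at hv3
  rw [← t1] at hv1
  rw [← t2] at hv2
  have hsX : s ∈ Lam H u k := (hs ▸ mem_singleton s : s ∈ Lam H u k ∩ Lam H u (k + 3)).1
  have hsY : s ∈ Lam H u (k + 3) := (hs ▸ mem_singleton s : s ∈ Lam H u k ∩ Lam H u (k + 3)).2
  have l1 := S.le v h hv k
  have l2 := S.le v h hv (k + 3)
  rw [e1] at l1
  rw [e2] at l2
  have hdich : ∀ {X Y : Set (Fin 6)}, X \ {s} ⊆ Y → Y ⊆ X → s ∈ X → Y = X \ {s} ∨ Y = X := by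
    intro X Y h1 h2 h4
    by_cases h5 : s ∈ Y
    · right
      refine subset_antisymm h2 fun i hi => ?_
      by_cases h6 : i = s
      · rw [h6]; exact h5
      · exact h1 ⟨hi, h6⟩
    · left
      exact subset_antisymm (fun i hi => ⟨h2 hi, fun h6 => h5 (h6 ▸ hi)⟩) h1
  have hdisj : ∀ {A B : Set (Fin 6)}, A ∩ B = {s} → ¬ (A ∩ (B \ {s})).Nonempty := by
    rintro A B hAB ⟨i, hi1, hi2, hi3⟩
    have : i ∈ A ∩ B := ⟨hi1, hi2⟩
    rw [hAB] at this
    exact hi3 this
  have hgap := gap3_fin C hact' v k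
  rcases hdich l1 hv1 hsX with hP | hP <;> rcases hdich l2 hv2 hsY with hQ | hQ
  · exact hv3 ⟨hP, hQ⟩
  · rw [hP, hQ] at hgap
    have h5 := hgap (Or.inr ⟨by rw [Set.ncard_sdiff_singleton_of_mem hsX, h3], h3'⟩)
    rw [Set.inter_comm] at h5
    exact hdisj (by rw [Set.inter_comm]; exact hs) h5
  · rw [hP, hQ] at hgap
    have h5 := hgap (Or.inl ⟨h3, by rw [Set.ncard_sdiff_singleton_of_mem hsY, h3']⟩)
    exact hdisj hs h5
  · have h5 := C.anti (S.gn v h hv) k
    rw [hP, hQ] at h5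
    have := Set.ncard_union_add_ncard_inter (Lam H u k) (Lam H u (k + 3)) (Set.toFinite _)
      (Set.toFinite _)
    rw [hs, Set.ncard_singleton, h3, h3'] at this
    omega

end Vale.Agent.P032.Words6.H46
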