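import Vale.Agent.P032.Words6.H46.TreesM
import Vale.Agent.P032.Words6.H46.Leaf35a
import Vale.Agent.P032.Words6.H46.Leaf35b
import Vale.Agent.P032.Words6.H46.Leaf35c
import Vale.Agent.P032.Words6.H46.Leaf35d

/-!
# P032: the tree of the prism
-/

namespace Vale.Agent.P032.Words6.H46

open Vale.Agent.P032.Words.Trie Vale.Agent.P032.Words6.H358

theorem tree35 : TreeOK [3, 5, 9, 6, 18, 36, 24, 40, 48] := by
  refine treeOK_35 fun l hl => ?_
  unfold leaves35 at hl
  simp only [List.mem_cons, List.not_mem_nil, or_false] at hl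
  rcases hl with rfl | rfl | rfl | rfl | rfl | rfl | rfl | rfl | rfl | rfl | rfl |
    rfl | rfl | rfl | rfl | rfl | rfl | rfl | rfl | rfl | rfl | rfl |
    rfl | rfl | rfl | rfl | rfl | rfl | rfl | rfl | rfl | rfl | rfl
  exacts [leaf35_1, leaf35_2, leaf35_3, leaf35_4, leaf35_5, leaf35_6, leaf35_7, leaf35_8,
    leaf35_9, leaf35_10, leaf35_11, leaf35_12, leaf35_13, leaf35_14, leaf35_15, leaf35_16,
    leaf35_17, leaf35_18, leaf35_19, leaf35_20, leaf35_21, leaf35_22, leaf35_23, leaf35_24,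
    leaf35_25, leaf35_26, leaf35_27, leaf35_28, leaf35_29, leaf35_30, leaf35_31, leaf35_32, leaf35_33]


end Vale.Agent.P032.Words6.H46
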