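import Vale.Agent.P032.Words6.H358.TreeD
import Vale.Agent.P032.Words.H670.M22
import Vale.Agent.P032.Words.H670.M28
import Vale.Agent.P032.Words.H670.M30
import Vale.Agent.P032.Words.H670.M32
import Vale.Agent.P032.Words.H670.M33
import Vale.Agent.P032.Words.H670.M34

/-!
# P032: the trees with one class
-/

namespace Vale.Agent.P032.Words6.H46

open Vale.Agent.P032.Words.Trie Vale.Agent.P032.Words6.H358

theorem tree22 : TreeOK [3, 5, 10, 20, 40, 48] :=
  treeOK_of_three (c := 7) (LeafOK.mk' C22a.tab (by decide +kernel) (by decide +kernel))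
    (LeafOK.mk' C22b.tab (by decide +kernel) (by decide +kernel))
    (LeafOK.mk' C22t.tab (by decide +kernel) (by decide +kernel))

theorem tree28 : TreeOK [3, 5, 9, 6, 18, 40, 48] :=
  treeOK_of_three (c := 7) (LeafOK.mk' C28a.tab (by decide +kernel) (by decide +kernel))
    (LeafOK.mk' C28b.tab (by decide +kernel) (by decide +kernel))
    (LeafOK.mk' C28t.tab (by decide +kernel) (by decide +kernel))

theorem tree30 : TreeOK [3, 5, 9, 18, 34, 20, 40] :=
  treeOK_of_three (c := 13) (LeafOK.mk' C30a.tab (by decide +kernel) (by decide +kernel))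
    (LeafOK.mk' C30b.tab (by decide +kernel) (by decide +kernel))
    (LeafOK.mk' C30t.tab (by decide +kernel) (by decide +kernel))

theorem tree32 : TreeOK [3, 5, 9, 6, 10, 20, 40, 48] :=
  treeOK_of_three (c := 7) (LeafOK.mk' C32a.tab (by decide +kernel) (by decide +kernel))
    (LeafOK.mk' C32b.tab (by decide +kernel) (by decide +kernel))
    (LeafOK.mk' C32t.tab (by decide +kernel) (by decide +kernel))

theorem tree33 : TreeOK [3, 5, 9, 6, 18, 36, 24, 40] :=
  treeOK_of_three (c := 7) (LeafOK.mk' C33a.tab (by decide +kernel) (by decide +kernel))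
    (LeafOK.mk' C33b.tab (by decide +kernel) (by decide +kernel))
    (LeafOK.mk' C33t.tab (by decide +kernel) (by decide +kernel))

theorem tree34 : TreeOK [3, 5, 9, 6, 18, 24, 40, 48] :=
  treeOK_of_three (c := 7) (LeafOK.mk' C34a.tab (by decide +kernel) (by decide +kernel))
    (LeafOK.mk' C34b.tab (by decide +kernel) (by decide +kernel))
    (LeafOK.mk' C34t.tab (by decide +kernel) (by decide +kernel))


end Vale.Agent.P032.Words6.H46
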